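import Mathlib

/-!
Basic notions for oriented graphs given by a relation `r` on a finite type: first and second
out-neighbourhoods, vertices within directed distance two, missing edges, and blocked additions.
-/

namespace Vale.Agent.Lib.P038

open Finset

variable {V : Type*}

/-- `w` is equal to `t`, or an out-neighbour of `t`, or the head of a directed path of length two
starting at `t`. -/
def Near (r : V → V → Prop) (t w : V) : Prop :=
  w = t ∨ r t w ∨ ∃ u, r t u ∧ r u w

/-- Adding the arc `u → v` is blocked: some in-neighbour `t` of `u` has `v` not within directed
distance two. -/
def Blocked (r : V → V → Prop) (u v : V) : Prop :=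
  ∃ t, r t u ∧ ¬ Near r t v

/-- `u` and `v` are distinct, non-adjacent, and adding either of the arcs `u → v`, `v → u` is
blocked. -/
def DoubleBlocked (r : V → V → Prop) (u v : V) : Prop :=
  u ≠ v ∧ ¬ r u v ∧ ¬ r v u ∧ Blocked r u v ∧ Blocked r v u

variable [Fintype V]

open Classical in
/-- The first out-neighbourhood of `v`. -/
noncomputable def out (r : V → V → Prop) (v : V) : Finset V :=
  univ.filter fun w => r v w

open Classical in
/-- The second out-neighbourhood of `v`: vertices other than `v`, not out-neighbours of `v`, that
are heads of a directed path of length two starting at `v`. -/
noncomputable def second (r : V → V → Prop) (v : V) : Finset V :=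
  univ.filter fun w => w ≠ v ∧ ¬ r v w ∧ ∃ u, r v u ∧ r u w

open Classical in
/-- The vertices `x` at directed distance more than two from `f` such that at least two
out-neighbours `u` of `f` form a double-blocked missing edge with `x`. -/
noncomputable def excess (r : V → V → Prop) (f : V) : Finset V :=
  univ.filter fun x => ¬ Near r f x ∧ 2 ≤ ((out r f).filter fun u => DoubleBlocked r u x).card

end Vale.Agent.Lib.P038
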