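import Mathlib

/-!
Median orders of skew-symmetric integer-valued functions with values in `{-1, 0, 1}`,
and a counting inequality for the last vertex of such an order.
-/

namespace Vale.Agent.Lib.P038

open Finset

variable {V : Type*}

/-- The number of forward arcs minus the number of backward arcs of an order. -/
def score (a : V → V → ℤ) : List V → ℤ
  | [] => 0
  | u :: l => (l.map (a u)).sum + score a l

/-- The total value of `a` from the members of `A` to the members of `B`. -/
def cross (a : V → V → ℤ) (A B : List V) : ℤ :=
  (A.map fun u => (B.map (a u)).sum).sum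

lemma score_append (a : V → V → ℤ) (A B : List V) :
    score a (A ++ B) = score a A + score a B + cross a A B := by
  induction A with
  | nil => simp [score, cross]
  | cons u A ih =>
    simp only [List.cons_append, score, ih, cross, List.map_cons, List.sum_cons, List.map_append,
      List.sum_append]
    ring

lemma cross_perm_right (a : V → V → ℤ) (A : List V) {B B' : List V} (h : B.Perm B') :
    cross a A B = cross a A B' := by
  unfold cross
  congr 1
  apply List.map_congr_left
  intro u _
  exact (h.map (a u)).sum_eq

lemma cross_perm_left (a : V → V → ℤ) {A A' : List V} (B : List V) (h : A.Perm A') :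
    cross a A B = cross a A' B := by
  unfold cross
  exact (h.map _).sum_eq

lemma cross_nil_left (a : V → V → ℤ) (B : List V) : cross a [] B = 0 := by
  simp [cross]

lemma score_move_block (a : V → V → ℤ) (anti : ∀ u v, a u v = - a v u) (x : V) (G : List V) :
    score a (x :: G) = score a (G ++ [x]) - 2 * (G.map fun u => a u x).sum := by
  have h1 : (G.map (a x)).sum = - (G.map fun u => a u x).sum := by
    induction G with
    | nil => simp
    | cons g G ih =>
      simp only [List.map_cons, List.sum_cons, ih]
      rw [anti x g]
      ring
  have h2 : cross a G [x] = (G.map fun u => a u x).sum := by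
    simp [cross]
  rw [score_append, h2]
  simp only [score, List.map_nil, List.sum_nil]
  rw [h1]
  ring

/-- Moving `x` to the left past the block `G`, inside a longer order. -/
lemma score_move (a : V → V → ℤ) (anti : ∀ u v, a u v = - a v u) (A G R : List V) (x : V) :
    score a (A ++ (x :: G) ++ R) =
      score a (A ++ (G ++ [x]) ++ R) - 2 * (G.map fun u => a u x).sum := by
  have hp : (x :: G).Perm (G ++ [x]) := by
    simpa using (List.perm_append_comm (l₁ := [x]) (l₂ := G))
  have hpp : (A ++ (x :: G)).Perm (A ++ (G ++ [x])) := hp.append_left A
  rw [score_append a (A ++ (x :: G)) R, score_append a (A ++ (G ++ [x])) R,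
    score_append a A (x :: G), score_append a A (G ++ [x]),
    cross_perm_left a R hpp, cross_perm_right a A hp, score_move_block a anti x G]
  ring

section Pot

variable [DecidableEq V]

/-- The number of pairs `(u, x)` with `u` before `x`, `u ∉ X` and `x ∈ X`. -/
def pot (X : Finset V) : List V → ℕ
  | [] => 0
  | u :: l => (if u ∉ X then l.countP (· ∈ X) else 0) + pot X l

lemma pot_append (X : Finset V) (A B : List V) :
    pot X (A ++ B) = pot X A + pot X B + A.countP (· ∉ X) * B.countP (· ∈ X) := by
  induction A with
  | nil => simp [pot]
  | cons u A ih =>
    simp only [List.cons_append, pot, ih, List.countP_append, List.countP_cons]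
    by_cases hu : u ∈ X
    · simp [hu]
    · simp [hu]
      ring

lemma pot_move_lt (X : Finset V) (A G R : List V) (x : V) (hx : x ∈ X)
    (hG : ∀ u ∈ G, u ∉ X) (hne : G ≠ []) :
    pot X (A ++ (x :: G) ++ R) < pot X (A ++ (G ++ [x]) ++ R) := by
  have hc1 : G.countP (· ∉ X) = G.length := by
    rw [List.countP_eq_length]
    intro u hu
    simpa using hG u hu
  have hc2 : G.countP (· ∈ X) = 0 := by
    rw [List.countP_eq_zero]
    intro u hu
    simpa using hG u hu
  have hpotG : pot X G = 0 := by
    clear hc1 hc2 hne
    induction G with
    | nil => rfl
    | cons g G ih =>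
      have hg : g ∉ X := hG g (by simp)
      have hG' : ∀ u ∈ G, u ∉ X := fun u hu => hG u (by simp [hu])
      have hc : G.countP (· ∈ X) = 0 := by
        rw [List.countP_eq_zero]
        intro u hu
        simpa using hG' u hu
      simp [pot, hg, hc, ih hG']
  have hlen : 0 < G.length := List.length_pos_iff.mpr hne
  simp only [pot_append, List.countP_append, List.countP_cons, hc1, hc2, hpotG, pot, hx]
  simp
  nlinarith [Nat.zero_le (R.countP (· ∈ X)), Nat.zero_le (A.countP (· ∉ X))]

end Pot

section Main

variable [Fintype V] [DecidableEq V]

/-- An order of all vertices with the largest possible score. -/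
def IsOpt (a : V → V → ℤ) (L : List V) : Prop :=
  L.Perm (univ : Finset V).toList ∧
    ∀ L' : List V, L'.Perm (univ : Finset V).toList → score a L' ≤ score a L

lemma exists_isOpt (a : V → V → ℤ) : ∃ L, IsOpt a L := by
  classical
  have hne : ((univ : Finset V).toList.permutations.toFinset).Nonempty := by
    refine ⟨(univ : Finset V).toList, ?_⟩
    simp [List.mem_permutations]
  obtain ⟨L, hL, hmax⟩ := Finset.exists_max_image _ (score a) hne
  refine ⟨L, ?_, ?_⟩
  · simpa [List.mem_permutations] using hL
  · intro L' hL'
    exact hmax L' (by simpa [List.mem_permutations] using hL')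

lemma IsOpt.nodup {a : V → V → ℤ} {L : List V} (h : IsOpt a L) : L.Nodup :=
  h.1.nodup_iff.mpr (Finset.nodup_toList _)

lemma IsOpt.mem {a : V → V → ℤ} {L : List V} (h : IsOpt a L) (v : V) : v ∈ L :=
  h.1.mem_iff.mpr (by simp)

/-- The signed count used in the suffix induction. -/
def wt (P Q : Finset V) (u : V) : ℤ :=
  (if u ∈ Q then 1 else 0) - (if u ∈ P then 1 else 0)

lemma sum_map_eq_finset_sum {G : List V} (hG : G.Nodup) (g : V → ℤ) :
    (G.map g).sum = ∑ u ∈ G.toFinset, g u :=
  (List.sum_toFinset g hG).symm

theorem suffix_nonneg (a : V → V → ℤ) (anti : ∀ u v, a u v = - a v u)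
    (bound : ∀ u v, a u v ≤ 1) (f : V) (P Q X : Finset V)
    (L : List V) (hopt : IsOpt a L) (hlast : L.getLast? = some f)
    (hmin : ∀ L', IsOpt a L' → L'.getLast? = some f → pot X L ≤ pot X L')
    (hP : ∀ u ∈ P, a u f = -1)
    (hcost : ∀ x ∈ X, ∑ u ∈ P, (1 + a u x) ≤ 1)
    (hcover : ∀ v, v ≠ f → v ∈ P ∨ v ∈ Q ∨ v ∈ X)
    (hPQ : ∀ v ∈ P, v ∉ Q) (hPX : ∀ v ∈ P, v ∉ X) (hQX : ∀ v ∈ Q, v ∉ X)
    (hfX : f ∉ X) (hfP : f ∉ P) (hfQ : f ∉ Q) :
    ∀ (n : ℕ) (B A : List V), B.length = n → L = A ++ B → 0 ≤ (B.map (wt P Q)).sum := by
  have hnd := hopt.nodup
  have hge : ∀ u v, -1 ≤ a u v := by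
    intro u v
    have := bound v u
    rw [anti u v]
    linarith
  intro n
  induction n using Nat.strong_induction_on with
  | _ n ih =>
    intro B A hlen hL
    by_cases hB : B = []
    · simp [hB]
    have hlastB : B.getLast? = some f := by
      rw [hL] at hlast
      rw [List.getLast?_append] at hlast
      have : B.getLast? ≠ none := by
        simpa [List.getLast?_eq_none_iff] using hB
      cases hb : B.getLast? with
      | none => exact absurd hb this
      | some y => simpa [hb] using hlast
    -- the first element of `X` in `B`
    have hsplit : B = B.takeWhile (· ∉ X) ++ B.dropWhile (· ∉ X) := by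
      simp
    set G := B.takeWhile (fun v => decide (v ∉ X)) with hGdef
    set T := B.dropWhile (fun v => decide (v ∉ X)) with hTdef
    have hGX : ∀ u ∈ G, u ∉ X := by
      intro u hu
      have := List.mem_takeWhile_imp hu
      simpa using this
    cases hT : T with
    | nil =>
      -- no element of `X` in `B`
      rw [hT] at hsplit
      have hBG : B = G := by simpa using hsplit
      obtain hBnil | ⟨B', y, hBc'⟩ := List.eq_nil_or_concat B
      · exact absurd hBnil hB
      have hBc : B = B' ++ [y] := by simpa using hBc'
      have hy : y = f := by
        rw [hBc] at hlastB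
        simpa using hlastB
      subst hy
      have hL2 : L = A ++ (B' ++ [y]) := by rw [hL, hBc]
      -- `y` cannot move left with gain
      have hperm : (A ++ (y :: B')).Perm (univ : Finset V).toList := by
        refine List.Perm.trans ?_ hopt.1
        rw [hL2]
        apply List.Perm.append_left
        simpa using (List.perm_append_comm (l₁ := [y]) (l₂ := B'))
      have hmv := score_move a anti A B' [] y
      simp only [List.append_nil] at hmv
      have hle := hopt.2 _ hperm
      have hsum : 0 ≤ (B'.map fun u => a u y).sum := by
        rw [hL2] at hle
        rw [hL2] at hopt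
        linarith
      have hB'nd : B'.Nodup := by
        have : (A ++ (B' ++ [y])).Nodup := hL2 ▸ hnd
        exact ((List.nodup_append.mp this).2.1).sublist (List.sublist_append_left _ _)
      have hy' : y ∉ B' := by
        have : (A ++ (B' ++ [y])).Nodup := hL2 ▸ hnd
        have h2 := (List.nodup_append.mp this).2.1
        have h3 := List.nodup_append.mp h2
        intro hmem
        exact (h3.2.2 y hmem y (by simp)) rfl
      have hpt : ∀ u ∈ B', a u y ≤ wt P Q u := by
        intro u hu
        have hune : u ≠ y := fun h => hy' (h ▸ hu)
        have huX : u ∉ X := by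
          apply hGX
          rw [← hBG, hBc]
          simp [hu]
        rcases hcover u hune with huP | huQ | huX'
        · have := hP u huP
          simp [wt, huP, hPQ u huP, this]
        · have huP : u ∉ P := fun h => hPQ u h huQ
          simp only [wt, huQ, huP, if_true, if_false]
          have := bound u y
          linarith
        · exact absurd huX' huX
      have hmono : (B'.map fun u => a u y).sum ≤ (B'.map (wt P Q)).sum :=
        List.sum_le_sum hpt
      rw [hBc]
      simp only [List.map_append, List.map_cons, List.map_nil, List.sum_append, List.sum_cons,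
        List.sum_nil]
      have hwf : wt P Q y = 0 := by simp [wt, hfP, hfQ]
      rw [hwf]
      linarith
    | cons x R =>
      rw [hT] at hsplit
      have hxX : x ∈ X := by
        have hne : B.dropWhile (fun v => decide (v ∉ X)) ≠ [] := by
          rw [← hTdef, hT]; simp
        have h := List.head_dropWhile_not (fun v => decide (v ∉ X)) hne
        have h2 : (B.dropWhile (fun v => decide (v ∉ X))).head hne = x := by
          simp only [← hTdef]
          simp [hT]
        rw [h2] at h
        simpa using h
      have hRne : R ≠ [] := by
        intro hR
        subst hR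
        have : B.getLast? = some x := by
          rw [hsplit]
          simp
        rw [this] at hlastB
        have : x = f := by simpa using hlastB
        exact hfX (this ▸ hxX)
      have hL3 : L = A ++ (G ++ [x]) ++ R := by
        rw [hL, hsplit]
        simp
      have hlenR : R.length < n := by
        rw [← hlen, hsplit]
        simp
        omega
      have hRih := ih R.length hlenR R (A ++ (G ++ [x])) rfl hL3
      have hGnd : G.Nodup := by
        have : (A ++ (G ++ [x]) ++ R).Nodup := hL3 ▸ hnd
        have h1 := (List.nodup_append.mp this).1
        have h2 := (List.nodup_append.mp h1).2.1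
        exact (h2).sublist (List.sublist_append_left _ _)
      have hwx : wt P Q x = 0 := by
        have h1 : x ∉ P := fun h => hPX x h hxX
        have h2 : x ∉ Q := fun h => hQX x h hxX
        simp [wt, h1, h2]
      have hGsum : 0 ≤ (G.map (wt P Q)).sum := by
        by_cases hGnil : G = []
        · simp [hGnil]
        -- strict inequality from minimality of the potential
        have hstrict : 1 ≤ (G.map fun u => a u x).sum := by
          by_contra hcon
          have hle0 : (G.map fun u => a u x).sum ≤ 0 := by omega
          have hperm : (A ++ (x :: G) ++ R).Perm (univ : Finset V).toList := by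
            refine List.Perm.trans ?_ hopt.1
            rw [hL3]
            apply List.Perm.append_right
            apply List.Perm.append_left
            simpa using (List.perm_append_comm (l₁ := [x]) (l₂ := G))
          have hmv := score_move a anti A G R x
          have hopt' : IsOpt a (A ++ (x :: G) ++ R) := by
            refine ⟨hperm, ?_⟩
            intro L' hL'
            have := hopt.2 L' hL'
            rw [hL3] at this
            linarith
          have hlast' : (A ++ (x :: G) ++ R).getLast? = some f := by
            rw [List.getLast?_append]
            have hRl : R.getLast? = some f := by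
              rw [hL3] at hlast
              rw [List.getLast?_append] at hlast
              cases hb : R.getLast? with
              | none =>
                rw [List.getLast?_eq_none_iff] at hb
                exact absurd hb hRne
              | some y => simpa [hb] using hlast
            simp [hRl]
          have hpotle := hmin _ hopt' hlast'
          have hpotlt := pot_move_lt X A G R x hxX hGX hGnil
          rw [hL3] at hpotle
          omega
        have hpt : ∀ u ∈ G, a u x - (if u ∈ P then 1 + a u x else 0) ≤ wt P Q u := by
          intro u hu
          have huX := hGX u hu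
          have hune : u ≠ f := by
            intro huf
            -- `f` occurs only at the end of `L`
            have hfR : f ∈ R := by
              rw [hL3] at hlast
              rw [List.getLast?_append] at hlast
              cases hb : R.getLast? with
              | none =>
                rw [List.getLast?_eq_none_iff] at hb
                exact absurd hb hRne
              | some y =>
                have : y = f := by simpa [hb] using hlast
                rw [← this]
                exact List.mem_of_getLast? hb
            have : (A ++ (G ++ [x]) ++ R).Nodup := hL3 ▸ hnd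
            have h3 := List.nodup_append.mp this
            exact (h3.2.2 f (by simp [huf ▸ hu]) f hfR) rfl
          rcases hcover u hune with huP | huQ | huX'
          · simp [wt, huP, hPQ u huP]
          · have huP : u ∉ P := fun h => hPQ u h huQ
            simp only [wt, huQ, huP, if_true, if_false]
            have := bound u x
            linarith
          · exact absurd huX' huX
        have hmono : (G.map fun u => a u x - (if u ∈ P then 1 + a u x else 0)).sum ≤
            (G.map (wt P Q)).sum := List.sum_le_sum hpt
        have hsplit2 : (G.map fun u => a u x - (if u ∈ P then 1 + a u x else 0)).sum =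
            (G.map fun u => a u x).sum - (G.map fun u => if u ∈ P then 1 + a u x else 0).sum := by
          clear hmono hpt hstrict hGnil hGnd hGX
          induction G with
          | nil => simp
          | cons g G ih2 => simp only [List.map_cons, List.sum_cons, ih2]; ring
        have hcostG : (G.map fun u => if u ∈ P then 1 + a u x else 0).sum ≤ 1 := by
          rw [sum_map_eq_finset_sum hGnd]
          have h1 : ∑ u ∈ G.toFinset, (if u ∈ P then 1 + a u x else 0)
              = ∑ u ∈ G.toFinset ∩ P, (1 + a u x) := by
            rw [← Finset.sum_filter]
            apply Finset.sum_congr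
            · ext u
              simp
            · intro _ _
              rfl
          rw [h1]
          have h2 : ∑ u ∈ G.toFinset ∩ P, (1 + a u x) ≤ ∑ u ∈ P, (1 + a u x) := by
            apply Finset.sum_le_sum_of_subset_of_nonneg Finset.inter_subset_right
            intro u _ _
            have := hge u x
            linarith
          exact h2.trans (hcost x hxX)
        linarith
      rw [hsplit]
      simp only [List.map_append, List.map_cons, List.sum_append, List.sum_cons]
      rw [hwx]
      linarith

/-- **Median partition theorem.** For a skew-symmetric `a` with values at most `1` there is a vertex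
`f` (the last vertex of an optimal order) such that for all disjoint `P`, `X` avoiding `f`, if every
member of `P` has `a u f = -1` and every `x ∈ X` has `∑ u ∈ P, (1 + a u x) ≤ 1`, then the vertices
outside `P ∪ X ∪ {f}` are at least as many as the members of `P`. -/
theorem exists_last_vertex [Nonempty V] (a : V → V → ℤ) (anti : ∀ u v, a u v = - a v u)
    (bound : ∀ u v, a u v ≤ 1) :
    ∃ f : V, ∀ P X : Finset V, f ∉ P → f ∉ X → (∀ v ∈ P, v ∉ X) →
      (∀ u ∈ P, a u f = -1) → (∀ x ∈ X, ∑ u ∈ P, (1 + a u x) ≤ 1) →
      P.card ≤ (univ \ (P ∪ X ∪ {f})).card := by
  obtain ⟨L0, hL0⟩ := exists_isOpt a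
  have hne : L0 ≠ [] := by
    intro h
    obtain ⟨v⟩ := ‹Nonempty V›
    have := hL0.mem v
    simp [h] at this
  obtain ⟨f, hf⟩ : ∃ f, L0.getLast? = some f := by
    cases hb : L0.getLast? with
    | none =>
      rw [List.getLast?_eq_none_iff] at hb
      exact absurd hb hne
    | some y => exact ⟨y, rfl⟩
  refine ⟨f, ?_⟩
  intro P X hfP hfX hPX hP hcost
  -- choose an order with the least potential
  have hex : ∃ n, ∃ L, IsOpt a L ∧ L.getLast? = some f ∧ pot X L = n := ⟨_, L0, hL0, hf, rfl⟩
  classical
  obtain ⟨L, hLopt, hLlast, hLn⟩ := Nat.find_spec hex
  have hmin : ∀ L', IsOpt a L' → L'.getLast? = some f → pot X L ≤ pot X L' := by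
    intro L' h1 h2
    rw [hLn]
    exact Nat.find_min' hex ⟨L', h1, h2, rfl⟩
  set Q := (univ : Finset V) \ (P ∪ X ∪ {f}) with hQ
  have hcover : ∀ v, v ≠ f → v ∈ P ∨ v ∈ Q ∨ v ∈ X := by
    intro v hv
    by_cases h1 : v ∈ P
    · exact Or.inl h1
    by_cases h2 : v ∈ X
    · exact Or.inr (Or.inr h2)
    refine Or.inr (Or.inl ?_)
    simp [hQ, h1, h2, hv]
  have hPQ : ∀ v ∈ P, v ∉ Q := by
    intro v hv
    simp [hQ, hv]
  have hQX : ∀ v ∈ Q, v ∉ X := by
    intro v hv hvX
    simp [hQ, hvX] at hv
  have hfQ : f ∉ Q := by simp [hQ]
  have key := suffix_nonneg a anti bound f P Q X L hLopt hLlast hmin hP hcost hcover hPQ hPX hQX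
    hfX hfP hfQ L.length L [] rfl rfl
  have hsum : (L.map (wt P Q)).sum = (Q.card : ℤ) - (P.card : ℤ) := by
    rw [(hLopt.1.map (wt P Q)).sum_eq, Finset.sum_map_toList]
    unfold wt
    rw [Finset.sum_sub_distrib]
    simp [Finset.sum_ite_mem]
  rw [hsum] at key
  have : (P.card : ℤ) ≤ Q.card := by linarith
  exact_mod_cast this

end Main

end Vale.Agent.Lib.P038
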