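import Mathlib
import Vale.Agent.Lib.P038.Median

/-!
A weighted form of the median partition theorem: labels `b` with values in `[-N, N]`, and a third
class `T` of neutral vertices.
-/

namespace Vale.Agent.Lib.P038

open Finset

variable {V : Type*} [Fintype V] [DecidableEq V]

/-- The contribution of one gap of the order. -/
lemma gap_wt_nonneg (b : V → V → ℤ) (N : ℤ) (hN : 1 ≤ N) (bound : ∀ u v, b u v ≤ N)
    (hge : ∀ u v, -N ≤ b u v) (P T Q : Finset V) (y : V) (G : List V) (hGnd : G.Nodup)
    (hcov : ∀ u ∈ G, u ∈ P ∨ u ∈ T ∨ u ∈ Q) (hPQ : ∀ v ∈ P, v ∉ Q) (hTQ : ∀ v ∈ T, v ∉ Q)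
    (hPT : ∀ v ∈ P, v ∉ T) (c : ℤ) (hsum : c ≤ (G.map fun u => b u y).sum)
    (hc : ∑ u ∈ P, (N + b u y) + ∑ u ∈ T, max 0 (b u y) ≤ N - 1 + c) :
    0 ≤ (G.map (wt P Q)).sum := by
  have hpt : ∀ u ∈ G, b u y ≤ N * wt P Q u + (if u ∈ P then N + b u y else 0) +
      (if u ∈ T then max 0 (b u y) else 0) := by
    intro u hu
    have hb := bound u y
    rcases hcov u hu with h | h | h
    · have h1 : u ∉ Q := hPQ u h
      have h2 : u ∉ T := hPT u h
      simp only [wt, h, h1, h2, if_true, if_false]
      linarith
    · have h1 : u ∉ Q := hTQ u h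
      have h2 : u ∉ P := fun hp => hPT u hp h
      simp only [wt, h, h1, h2, if_true, if_false]
      have := le_max_right 0 (b u y)
      linarith
    · have h1 : u ∉ P := fun hp => hPQ u hp h
      have h2 : u ∉ T := fun hp => hTQ u hp h
      simp only [wt, h, h1, h2, if_true, if_false]
      linarith
  have hmono : (G.map fun u => b u y).sum ≤ (G.map fun u => N * wt P Q u +
      (if u ∈ P then N + b u y else 0) + (if u ∈ T then max 0 (b u y) else 0)).sum :=
    List.sum_le_sum hpt
  have hsplit : (G.map fun u => N * wt P Q u + (if u ∈ P then N + b u y else 0) +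
      (if u ∈ T then max 0 (b u y) else 0)).sum = N * (G.map (wt P Q)).sum +
      ∑ u ∈ G.toFinset ∩ P, (N + b u y) + ∑ u ∈ G.toFinset ∩ T, max 0 (b u y) := by
    have e1 : ∀ (F : Finset V) (g : V → ℤ), (G.map fun u => if u ∈ F then g u else 0).sum =
        ∑ u ∈ G.toFinset ∩ F, g u := by
      intro F g
      rw [sum_map_eq_finset_sum hGnd, ← Finset.sum_filter]
      apply Finset.sum_congr
      · ext u
        simp
      · intro _ _
        rfl
    rw [← e1 P, ← e1 T]
    clear hmono hpt hcov e1 hGnd hsum
    induction G with
    | nil => simp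
    | cons g G ih =>
      simp only [List.map_cons, List.sum_cons, ih]
      ring
  have h1 : ∑ u ∈ G.toFinset ∩ P, (N + b u y) ≤ ∑ u ∈ P, (N + b u y) := by
    apply Finset.sum_le_sum_of_subset_of_nonneg Finset.inter_subset_right
    intro u _ _
    have := hge u y
    linarith
  have h2 : ∑ u ∈ G.toFinset ∩ T, max 0 (b u y) ≤ ∑ u ∈ T, max 0 (b u y) := by
    apply Finset.sum_le_sum_of_subset_of_nonneg Finset.inter_subset_right
    intro u _ _
    exact le_max_left _ _
  rw [hsplit] at hmono
  by_contra hcon
  have hW : (G.map (wt P Q)).sum ≤ -1 := by omega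
  have : N * (G.map (wt P Q)).sum ≤ N * (-1) := by
    apply mul_le_mul_of_nonneg_left hW
    linarith
  linarith

/-- The suffix induction for the weighted form. -/
theorem suffix_nonneg_gain (b : V → V → ℤ) (N : ℤ) (hN : 1 ≤ N) (anti : ∀ u v, b u v = - b v u)
    (bound : ∀ u v, b u v ≤ N) (f : V) (P T Q X : Finset V)
    (L : List V) (hopt : IsOpt b L) (hlast : L.getLast? = some f)
    (hmin : ∀ L', IsOpt b L' → L'.getLast? = some f → pot X L ≤ pot X L')
    (hcf : ∑ u ∈ P, (N + b u f) + ∑ u ∈ T, max 0 (b u f) ≤ N - 1)
    (hcost : ∀ y ∈ X, ∑ u ∈ P, (N + b u y) + ∑ u ∈ T, max 0 (b u y) ≤ N)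
    (hcover : ∀ v, v ≠ f → v ∈ P ∨ v ∈ T ∨ v ∈ Q ∨ v ∈ X)
    (hPQ : ∀ v ∈ P, v ∉ Q) (hTQ : ∀ v ∈ T, v ∉ Q) (hPT : ∀ v ∈ P, v ∉ T)
    (hPX : ∀ v ∈ P, v ∉ X) (hQX : ∀ v ∈ Q, v ∉ X)
    (hfX : f ∉ X) (hfP : f ∉ P) (hfQ : f ∉ Q) :
    ∀ (n : ℕ) (B A : List V), B.length = n → L = A ++ B → 0 ≤ (B.map (wt P Q)).sum := by
  have hnd := hopt.nodup
  have hge : ∀ u v, -N ≤ b u v := by
    intro u v
    have := bound v u
    rw [anti u v]
    linarith
  intro n
  induction n using Nat.strong_induction_on with
  | _ n ih =>
    intro B A hlen hL
    by_cases hB : B = []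
    · simp [hB]
    have hlastB : B.getLast? = some f := by
      rw [hL] at hlast
      rw [List.getLast?_append] at hlast
      have : B.getLast? ≠ none := by
        simpa [List.getLast?_eq_none_iff] using hB
      cases hb : B.getLast? with
      | none => exact absurd hb this
      | some y => simpa [hb] using hlast
    -- the first element of `X` in `B`
    have hsplit : B = B.takeWhile (· ∉ X) ++ B.dropWhile (· ∉ X) := by
      simp
    set G := B.takeWhile (fun v => decide (v ∉ X)) with hGdef
    set R := B.dropWhile (fun v => decide (v ∉ X)) with hTdef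
    have hGX : ∀ u ∈ G, u ∉ X := by
      intro u hu
      have := List.mem_takeWhile_imp hu
      simpa using this
    cases hT : R with
    | nil =>
      -- no element of `X` in `B`
      rw [hT] at hsplit
      have hBG : B = G := by simpa using hsplit
      obtain hBnil | ⟨B', y, hBc'⟩ := List.eq_nil_or_concat B
      · exact absurd hBnil hB
      have hBc : B = B' ++ [y] := by simpa using hBc'
      have hy : y = f := by
        rw [hBc] at hlastB
        simpa using hlastB
      subst hy
      have hL2 : L = A ++ (B' ++ [y]) := by rw [hL, hBc]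
      have hperm : (A ++ (y :: B')).Perm (univ : Finset V).toList := by
        refine List.Perm.trans ?_ hopt.1
        rw [hL2]
        apply List.Perm.append_left
        simpa using (List.perm_append_comm (l₁ := [y]) (l₂ := B'))
      have hmv := score_move b anti A B' [] y
      simp only [List.append_nil] at hmv
      have hle := hopt.2 _ hperm
      have hsum : 0 ≤ (B'.map fun u => b u y).sum := by
        rw [hL2] at hle
        rw [hL2] at hopt
        linarith
      have hB'nd : B'.Nodup := by
        have : (A ++ (B' ++ [y])).Nodup := hL2 ▸ hnd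
        exact ((List.nodup_append.mp this).2.1).sublist (List.sublist_append_left _ _)
      have hy' : y ∉ B' := by
        have : (A ++ (B' ++ [y])).Nodup := hL2 ▸ hnd
        have h2 := (List.nodup_append.mp this).2.1
        have h3 := List.nodup_append.mp h2
        intro hmem
        exact (h3.2.2 y hmem y (by simp)) rfl
      have hcov : ∀ u ∈ B', u ∈ P ∨ u ∈ T ∨ u ∈ Q := by
        intro u hu
        have hune : u ≠ y := fun h => hy' (h ▸ hu)
        have huX : u ∉ X := by
          apply hGX
          rw [← hBG, hBc]
          simp [hu]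
        rcases hcover u hune with h | h | h | h
        · exact Or.inl h
        · exact Or.inr (Or.inl h)
        · exact Or.inr (Or.inr h)
        · exact absurd h huX
      have hB'w := gap_wt_nonneg b N hN bound hge P T Q y B' hB'nd hcov hPQ hTQ hPT 0 hsum
        (by linarith)
      rw [hBc]
      simp only [List.map_append, List.map_cons, List.map_nil, List.sum_append, List.sum_cons,
        List.sum_nil]
      have hwf : wt P Q y = 0 := by simp [wt, hfP, hfQ]
      rw [hwf]
      linarith
    | cons x R' =>
      rw [hT] at hsplit
      have hxX : x ∈ X := by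
        have hne : B.dropWhile (fun v => decide (v ∉ X)) ≠ [] := by
          rw [← hTdef, hT]; simp
        have h := List.head_dropWhile_not (fun v => decide (v ∉ X)) hne
        have h2 : (B.dropWhile (fun v => decide (v ∉ X))).head hne = x := by
          simp only [← hTdef]
          simp [hT]
        rw [h2] at h
        simpa using h
      have hRne : R' ≠ [] := by
        intro hR
        subst hR
        have : B.getLast? = some x := by
          rw [hsplit]
          simp
        rw [this] at hlastB
        have : x = f := by simpa using hlastB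
        exact hfX (this ▸ hxX)
      have hL3 : L = A ++ (G ++ [x]) ++ R' := by
        rw [hL, hsplit]
        simp
      have hlenR : R'.length < n := by
        rw [← hlen, hsplit]
        simp
        omega
      have hRih := ih R'.length hlenR R' (A ++ (G ++ [x])) rfl hL3
      have hGnd : G.Nodup := by
        have : (A ++ (G ++ [x]) ++ R').Nodup := hL3 ▸ hnd
        have h1 := (List.nodup_append.mp this).1
        have h2 := (List.nodup_append.mp h1).2.1
        exact (h2).sublist (List.sublist_append_left _ _)
      have hwx : wt P Q x = 0 := by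
        have h1 : x ∉ P := fun h => hPX x h hxX
        have h2 : x ∉ Q := fun h => hQX x h hxX
        simp [wt, h1, h2]
      have hGsum : 0 ≤ (G.map (wt P Q)).sum := by
        by_cases hGnil : G = []
        · simp [hGnil]
        -- strict inequality from minimality of the potential
        have hstrict : 1 ≤ (G.map fun u => b u x).sum := by
          by_contra hcon
          have hle0 : (G.map fun u => b u x).sum ≤ 0 := by omega
          have hperm : (A ++ (x :: G) ++ R').Perm (univ : Finset V).toList := by
            refine List.Perm.trans ?_ hopt.1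
            rw [hL3]
            apply List.Perm.append_right
            apply List.Perm.append_left
            simpa using (List.perm_append_comm (l₁ := [x]) (l₂ := G))
          have hmv := score_move b anti A G R' x
          have hopt' : IsOpt b (A ++ (x :: G) ++ R') := by
            refine ⟨hperm, ?_⟩
            intro L' hL'
            have := hopt.2 L' hL'
            rw [hL3] at this
            linarith
          have hlast' : (A ++ (x :: G) ++ R').getLast? = some f := by
            rw [List.getLast?_append]
            have hRl : R'.getLast? = some f := by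
              rw [hL3] at hlast
              rw [List.getLast?_append] at hlast
              cases hb : R'.getLast? with
              | none =>
                rw [List.getLast?_eq_none_iff] at hb
                exact absurd hb hRne
              | some y => simpa [hb] using hlast
            simp [hRl]
          have hpotle := hmin _ hopt' hlast'
          have hpotlt := pot_move_lt X A G R' x hxX hGX hGnil
          rw [hL3] at hpotle
          omega
        have hcov : ∀ u ∈ G, u ∈ P ∨ u ∈ T ∨ u ∈ Q := by
          intro u hu
          have huX := hGX u hu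
          have hune : u ≠ f := by
            intro huf
            have hfR : f ∈ R' := by
              rw [hL3] at hlast
              rw [List.getLast?_append] at hlast
              cases hb : R'.getLast? with
              | none =>
                rw [List.getLast?_eq_none_iff] at hb
                exact absurd hb hRne
              | some y =>
                have : y = f := by simpa [hb] using hlast
                rw [← this]
                exact List.mem_of_getLast? hb
            have : (A ++ (G ++ [x]) ++ R').Nodup := hL3 ▸ hnd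
            have h3 := List.nodup_append.mp this
            exact (h3.2.2 f (by simp [huf ▸ hu]) f hfR) rfl
          rcases hcover u hune with h | h | h | h
          · exact Or.inl h
          · exact Or.inr (Or.inl h)
          · exact Or.inr (Or.inr h)
          · exact absurd h huX
        exact gap_wt_nonneg b N hN bound hge P T Q x G hGnd hcov hPQ hTQ hPT 1 hstrict
          (by have := hcost x hxX; linarith)
      rw [hsplit]
      simp only [List.map_append, List.map_cons, List.sum_append, List.sum_cons]
      rw [hwx]
      linarith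

/-- **Weighted median partition theorem.** For a skew-symmetric `b` with values at most `N` there
is a vertex `f` (the last vertex of an optimal order) such that for all pairwise disjoint `P`, `T`,
`X` avoiding `f` satisfying the two cost bounds, the vertices outside `P ∪ T ∪ X ∪ {f}` are at least
as many as the members of `P`. -/
theorem exists_last_vertex_gain [Nonempty V] (b : V → V → ℤ) (N : ℤ) (hN : 1 ≤ N)
    (anti : ∀ u v, b u v = - b v u) (bound : ∀ u v, b u v ≤ N) :
    ∃ f : V, ∀ P T X : Finset V, f ∉ P → f ∉ T → f ∉ X → (∀ v ∈ P, v ∉ T) → (∀ v ∈ P, v ∉ X) →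
      (∑ u ∈ P, (N + b u f) + ∑ u ∈ T, max 0 (b u f) ≤ N - 1) →
      (∀ y ∈ X, ∑ u ∈ P, (N + b u y) + ∑ u ∈ T, max 0 (b u y) ≤ N) →
      P.card ≤ (univ \ (P ∪ T ∪ X ∪ {f})).card := by
  obtain ⟨L0, hL0⟩ := exists_isOpt b
  have hne : L0 ≠ [] := by
    intro h
    obtain ⟨v⟩ := ‹Nonempty V›
    have := hL0.mem v
    simp [h] at this
  obtain ⟨f, hf⟩ : ∃ f, L0.getLast? = some f := by
    cases hb : L0.getLast? with
    | none =>
      rw [List.getLast?_eq_none_iff] at hb
      exact absurd hb hne
    | some y => exact ⟨y, rfl⟩
  refine ⟨f, ?_⟩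
  intro P T X hfP hfT hfX hPT hPX hcf hcost
  -- choose an order with the least potential
  have hex : ∃ n, ∃ L, IsOpt b L ∧ L.getLast? = some f ∧ pot X L = n := ⟨_, L0, hL0, hf, rfl⟩
  classical
  obtain ⟨L, hLopt, hLlast, hLn⟩ := Nat.find_spec hex
  have hmin : ∀ L', IsOpt b L' → L'.getLast? = some f → pot X L ≤ pot X L' := by
    intro L' h1 h2
    rw [hLn]
    exact Nat.find_min' hex ⟨L', h1, h2, rfl⟩
  set Q := (univ : Finset V) \ (P ∪ T ∪ X ∪ {f}) with hQ
  have hcover : ∀ v, v ≠ f → v ∈ P ∨ v ∈ T ∨ v ∈ Q ∨ v ∈ X := by
    intro v hv
    by_cases h1 : v ∈ P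
    · exact Or.inl h1
    by_cases h2 : v ∈ T
    · exact Or.inr (Or.inl h2)
    by_cases h3 : v ∈ X
    · exact Or.inr (Or.inr (Or.inr h3))
    refine Or.inr (Or.inr (Or.inl ?_))
    simp [hQ, h1, h2, h3, hv]
  have hPQ : ∀ v ∈ P, v ∉ Q := by
    intro v hv
    simp [hQ, hv]
  have hTQ : ∀ v ∈ T, v ∉ Q := by
    intro v hv
    simp [hQ, hv]
  have hQX : ∀ v ∈ Q, v ∉ X := by
    intro v hv hvX
    simp [hQ, hvX] at hv
  have hfQ : f ∉ Q := by simp [hQ]
  have key := suffix_nonneg_gain b N hN anti bound f P T Q X L hLopt hLlast hmin hcf hcost hcover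
    hPQ hTQ hPT hPX hQX hfX hfP hfQ L.length L [] rfl rfl
  have hsum : (L.map (wt P Q)).sum = (Q.card : ℤ) - (P.card : ℤ) := by
    rw [(hLopt.1.map (wt P Q)).sum_eq, Finset.sum_map_toList]
    unfold wt
    rw [Finset.sum_sub_distrib]
    simp [Finset.sum_ite_mem]
  rw [hsum] at key
  have : (P.card : ℤ) ≤ Q.card := by linarith
  exact_mod_cast this

end Vale.Agent.Lib.P038
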