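import Mathlib

/-!
Missing edges of a relation, and the condition that the missing edges form a forest of stars.
-/

namespace Vale.Agent.Lib.P038

variable {V : Type*}

/-- `u` and `v` are distinct and there is no arc between them. -/
def Miss (r : V → V → Prop) (u v : V) : Prop :=
  u ≠ v ∧ ¬ r u v ∧ ¬ r v u

/-- Every missing edge has an endpoint lying on no other missing edge: the graph of missing edges
is a vertex-disjoint union of stars (and isolated vertices). -/
def MissingStarForest (r : V → V → Prop) : Prop :=
  ∀ u v, Miss r u v → (∀ w, Miss r u w → w = v) ∨ (∀ w, Miss r v w → w = u)

end Vale.Agent.Lib.P038
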