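import Mathlib
import Vale.Agent.Lib.P038.Miss

/-!
The graph of missing edges of a relation, as a `SimpleGraph`.
-/

namespace Vale.Agent.Lib.P038

variable {V : Type*}

/-- The simple graph whose edges are the pairs of distinct vertices with no arc between them. -/
def missingGraph (r : V → V → Prop) : SimpleGraph V where
  Adj := Miss r
  symm := ⟨fun _ _ h => ⟨h.1.symm, h.2.2, h.2.1⟩⟩
  loopless := ⟨fun _ h => h.1 rfl⟩

end Vale.Agent.Lib.P038
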