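import Mathlib

/-!
A rank function on the vertices of a forest: adjacent vertices have different ranks, and a vertex
has at most one neighbour of smaller rank.
-/

namespace Vale.Agent.Lib.P038

open SimpleGraph

variable {V : Type*}

lemma rank_aux (G : SimpleGraph V) (hG : G.IsAcyclic) {ρ v w : V} (hv : G.Reachable ρ v)
    (hw : G.Reachable ρ w) (hadj : G.Adj v w) :
    G.dist ρ w = G.dist ρ v + 1 ∨ G.dist ρ v = G.dist ρ w + 1 := by
  obtain ⟨P, hP, hPl⟩ := hv.exists_path_of_dist
  obtain ⟨Q, hQ, hQl⟩ := hw.exists_path_of_dist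
  by_cases h : v ∈ Q.support
  · have h1 := hG.path_concat hP hQ hadj h
    left
    rw [← hPl, ← hQl, h1]
    simp
  · have hw' := hG.mem_support_of_ne_mem_support_of_adj_of_isPath hP hQ hadj h
    have h1 := hG.path_concat hQ hP hadj.symm hw'
    right
    rw [← hPl, ← hQl, h1]
    simp

lemma rank_parent (G : SimpleGraph V) (hG : G.IsAcyclic) {ρ v p q : V} (hv : G.Reachable ρ v)
    (hp : G.Reachable ρ p) (hq : G.Reachable ρ q) (h1 : G.Adj v p) (h2 : G.Adj v q)
    (hlp : G.dist ρ p < G.dist ρ v) (hlq : G.dist ρ q < G.dist ρ v) : p = q := by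
  obtain ⟨P, hP, hPl⟩ := hv.exists_path_of_dist
  have key : ∀ w, G.Reachable ρ w → G.Adj v w → G.dist ρ w < G.dist ρ v → w = P.penultimate := by
    intro w hw hadj hlt
    obtain ⟨Q, hQ, hQl⟩ := hw.exists_path_of_dist
    by_cases h : v ∈ Q.support
    · have h3 := hG.path_concat hP hQ hadj h
      have : Q.length = P.length + 1 := by rw [h3]; simp
      omega
    · have hw' := hG.mem_support_of_ne_mem_support_of_adj_of_isPath hP hQ hadj h
      exact hG.eq_penultimate_of_adj_end hP hadj hw'
  rw [key p hp h1 hlp, key q hq h2 hlq]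

theorem exists_rank (G : SimpleGraph V) (hG : G.IsAcyclic) : ∃ d : V → ℕ,
    (∀ u v, G.Adj u v → d u ≠ d v) ∧
    (∀ v p q, G.Adj v p → G.Adj v q → d p < d v → d q < d v → p = q) := by
  let ρ : V → V := fun v => (G.connectedComponentMk v).out
  have hρ : ∀ v, G.Reachable (ρ v) v := by
    intro v
    apply ConnectedComponent.exact
    exact Quot.out_eq _
  have hadjρ : ∀ u v, G.Adj u v → ρ u = ρ v := by
    intro u v h
    have : G.connectedComponentMk u = G.connectedComponentMk v :=
      ConnectedComponent.sound h.reachable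
    simp only [ρ, this]
  refine ⟨fun v => G.dist (ρ v) v, ?_, ?_⟩
  · intro u v h
    simp only
    rw [hadjρ u v h]
    have hu : G.Reachable (ρ v) u := (hρ v).trans h.symm.reachable
    have := rank_aux G hG hu (hρ v) h
    omega
  · intro v p q h1 h2 hlp hlq
    simp only at hlp hlq
    rw [hadjρ v p h1] at hlp
    rw [← hadjρ v p h1] at hlp
    rw [← hadjρ v q h2] at hlq
    have hvv : G.Reachable (ρ v) v := hρ v
    have hp : G.Reachable (ρ v) p := hvv.trans h1.reachable
    have hq : G.Reachable (ρ v) q := hvv.trans h2.reachable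
    exact rank_parent G hG hvv hp hq h1 h2 hlp hlq

end Vale.Agent.Lib.P038
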