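import Mathlib
import Vale.Agent.Lib.P038.Defs
import Vale.Agent.Lib.P038.Miss
import Vale.Agent.Lib.P038.Gain

/-!
Oriented graphs whose missing edges form a forest of stars have a vertex `f` with
`|N⁺(f)| ≤ |N⁺⁺(f)|`.
-/

namespace Vale.Agent.Lib.P038

open Finset

variable {V : Type*}

/-- `u` lies on at least two missing edges. -/
def Center (r : V → V → Prop) (u : V) : Prop :=
  ∃ v w, v ≠ w ∧ Miss r u v ∧ Miss r u w

open Classical in
/-- The weight of a missing edge in the direction from a center to an unblocked end. -/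
noncomputable def cw (N : ℤ) (r : V → V → Prop) (u v : V) : ℤ :=
  if Miss r u v ∧ Center r u ∧ ¬ Blocked r u v then N - 1 else 0

open Classical in
/-- The labelling: arcs get `±N`; a missing edge gets the difference of its two direction
weights. -/
noncomputable def sf (N : ℤ) (r : V → V → Prop) (u v : V) : ℤ :=
  if r u v then N else if r v u then -N else cw N r u v - cw N r v u

lemma sf_anti (N : ℤ) (r : V → V → Prop) (hr : ∀ u v, r u v → ¬ r v u) (u v : V) :
    sf N r u v = - sf N r v u := by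
  classical
  unfold sf
  by_cases h1 : r u v
  · have h2 := hr u v h1
    simp [h1, h2]
  · by_cases h2 : r v u
    · simp [h1, h2]
    · simp only [h1, h2, if_false]
      ring

lemma cw_nonneg (N : ℤ) (hN : 1 ≤ N) (r : V → V → Prop) (u v : V) : 0 ≤ cw N r u v := by
  classical
  unfold cw
  split_ifs <;> omega

lemma cw_le (N : ℤ) (hN : 1 ≤ N) (r : V → V → Prop) (u v : V) : cw N r u v ≤ N - 1 := by
  classical
  unfold cw
  split_ifs <;> omega

lemma sf_le (N : ℤ) (hN : 1 ≤ N) (r : V → V → Prop) (u v : V) : sf N r u v ≤ N := by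
  classical
  have h1 := cw_le N hN r u v
  have h2 := cw_nonneg N hN r v u
  unfold sf
  split_ifs <;> omega

lemma sf_of_arc (N : ℤ) (r : V → V → Prop) {u v : V} (h : r u v) : sf N r u v = N := by
  classical
  simp [sf, h]

lemma sf_of_arc' (N : ℤ) (r : V → V → Prop) (hr : ∀ u v, r u v → ¬ r v u) {u v : V}
    (h : r v u) : sf N r u v = -N := by
  classical
  have := hr v u h
  simp [sf, h, this]

lemma sf_of_miss (N : ℤ) (r : V → V → Prop) {u v : V} (h : Miss r u v) :
    sf N r u v = cw N r u v - cw N r v u := by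
  classical
  simp [sf, h.2.1, h.2.2]

lemma cw_of_blocked (N : ℤ) (r : V → V → Prop) {u v : V} (h : Blocked r u v) :
    cw N r u v = 0 := by
  classical
  simp [cw, h]

lemma Miss.symm {r : V → V → Prop} {u v : V} (h : Miss r u v) : Miss r v u :=
  ⟨h.1.symm, h.2.2, h.2.1⟩

/-- A payer for a costly vertex `x` far from `f`. -/
lemma exists_payer (N : ℤ) (hN : 2 ≤ N) (r : V → V → Prop) (hr : ∀ u v, r u v → ¬ r v u)
    (hs : MissingStarForest r) (f x u u' : V) (hx : ¬ Near r f x) (hu : r f u) (huu' : u ≠ u')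
    (hm : Miss r u x) (hm' : Miss r u' x) (h0 : sf N r u x = 0) :
    ∃ h, Miss r f h ∧ r h x ∧ (h ≠ f ∧ ¬ r f h ∧ ∃ v, r f v ∧ r v h) ∧
      ∀ w, r h w → ¬ Near r f w → w = x := by
  classical
  have hirr : ∀ v, ¬ r v v := fun v h => hr v v h h
  have hbl : Blocked r u x := ⟨f, hu, hx⟩
  have hcen : Center r x := ⟨u, u', huu', hm.symm, hm'.symm⟩
  have hbx : Blocked r x u := by
    by_contra hcon
    have hc : cw N r x u = N - 1 := by
      simp [cw, hm.symm, hcen, hcon]
    rw [sf_of_miss N r hm, cw_of_blocked N r hbl, hc] at h0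
    omega
  obtain ⟨h, hhx, hhu⟩ := hbx
  have hnhu : ¬ r h u := fun hh => hhu (Or.inr (Or.inl hh))
  have hhune : h ≠ u := fun hh => hhu (Or.inl hh.symm)
  have hhf : h ≠ f := by
    intro hh
    subst hh
    exact hx (Or.inr (Or.inl hhx))
  have hfh : ¬ r f h := fun hh => hx (Or.inr (Or.inr ⟨h, hh, hhx⟩))
  have hnhf : ¬ r h f := fun hh => hhu (Or.inr (Or.inr ⟨f, hh, hu⟩))
  have hleaf : ∀ w, Miss r u w → w = x := by
    rcases hs u x hm with h1 | h1
    · exact h1
    · exact absurd (h1 u' hm'.symm) huu'.symm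
  have huh : r u h := by
    by_contra hcon
    have : Miss r u h := ⟨hhune.symm, hcon, hnhu⟩
    have hhxe := hleaf h this
    subst hhxe
    exact hirr _ hhx
  refine ⟨h, ⟨hhf.symm, hfh, hnhf⟩, hhx, ⟨hhf, hfh, u, hu, huh⟩, ?_⟩
  intro w hhw hnw
  by_contra hwx
  have hwu : w ≠ u := fun hh => hnhu (hh ▸ hhw)
  have hnwu : ¬ r w u := fun hh => hhu (Or.inr (Or.inr ⟨w, hhw, hh⟩))
  have hnm : ¬ Miss r u w := fun hh => hwx (hleaf w hh)
  have huw : r u w := by
    by_contra hcon
    exact hnm ⟨hwu.symm, hcon, hnwu⟩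
  exact hnw (Or.inr (Or.inr ⟨u, hu, huw⟩))

/-- A sum of nonnegative terms with at most one positive term. -/
lemma sum_le_of_unique_pos {α : Type*} [DecidableEq α] (T : Finset α) (g : α → ℤ) (B : ℤ)
    (hB : 0 ≤ B) (hg : ∀ x ∈ T, 0 ≤ g x) (hle : ∀ x ∈ T, g x ≤ B)
    (hu : ∀ x ∈ T, ∀ y ∈ T, 0 < g x → 0 < g y → x = y) : ∑ x ∈ T, g x ≤ B := by
  by_cases hex : ∃ x ∈ T, 0 < g x
  · obtain ⟨x, hx, hpos⟩ := hex
    rw [Finset.sum_eq_single_of_mem x hx]
    · exact hle x hx
    · intro y hy hyx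
      have h0 := hg y hy
      by_contra hne
      exact hyx (hu y hy x hx (by omega) hpos)
  · push Not at hex
    have : ∑ x ∈ T, g x = 0 := by
      apply Finset.sum_eq_zero
      intro x hx
      have h1 := hg x hx
      have h2 := hex x hx
      omega
    omega

lemma max_sf_le (N : ℤ) (hN1 : 1 ≤ N) (r : V → V → Prop) {x y : V} (hm : Miss r x y) :
    max 0 (sf N r x y) ≤ N - 1 := by
  apply max_le (by omega)
  rw [sf_of_miss N r hm]
  have h1 := cw_le N hN1 r x y
  have h2 := cw_nonneg N hN1 r y x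
  omega

lemma pos_of_max {a : ℤ} (h : 0 < max 0 a) : 0 < a := by
  by_contra hcon
  have : max 0 a = 0 := max_eq_left (by omega)
  omega

/-- The cost bound at the last vertex. -/
lemma cost_at_last (N : ℤ) (hN1 : 1 ≤ N) (r : V → V → Prop) (hr : ∀ u v, r u v → ¬ r v u)
    (hs : MissingStarForest r) (f : V) (P T : Finset V) (hP : ∀ u ∈ P, r f u)
    (hT : ∀ t ∈ T, Miss r f t) :
    ∑ u ∈ P, (N + sf N r u f) + ∑ u ∈ T, max 0 (sf N r u f) ≤ N - 1 := by
  classical
  have h0 : ∑ u ∈ P, (N + sf N r u f) = 0 := by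
    apply Finset.sum_eq_zero
    intro u hu
    rw [sf_of_arc' N r hr (hP u hu)]
    ring
  rw [h0, zero_add]
  apply sum_le_of_unique_pos
  · omega
  · intro x _
    exact le_max_left _ _
  · intro x hx
    exact max_sf_le N hN1 r (hT x hx).symm
  · intro x hx y hy hxp _
    have hmx := (hT x hx).symm
    have hpos := pos_of_max hxp
    rw [sf_of_miss N r hmx] at hpos
    have hcx : 0 < cw N r x f := by
      have := cw_nonneg N hN1 r f x
      omega
    have hcenx : Center r x := by
      by_contra hcon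
      have : cw N r x f = 0 := by simp [cw, hcon]
      omega
    obtain ⟨v, w, hvw, hv, hw⟩ := hcenx
    rcases hs x f hmx with h1 | h1
    · exact absurd ((h1 v hv).trans (h1 w hw).symm) hvw
    · exact (h1 y (hT y hy)).symm

/-- The cost bound at a vertex with a positive label from the class `T`. -/
lemma cost_at_pos (N : ℤ) (hN1 : 1 ≤ N) (r : V → V → Prop) (hr : ∀ u v, r u v → ¬ r v u)
    (f y t : V) (P T : Finset V) (hP : ∀ u ∈ P, r f u) (hPT : ∀ v ∈ P, v ∉ T)
    (hyn : ¬ Near r f y) (ht : t ∈ T) (hleaf : ∀ w, Miss r y w → w = t)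
    (hty : ∀ t ∈ T, 0 < sf N r t y → Miss r t y) :
    ∑ u ∈ P, (N + sf N r u y) + ∑ u ∈ T, max 0 (sf N r u y) ≤ N := by
  classical
  have hA : ∑ u ∈ P, (N + sf N r u y) = 0 := by
    apply Finset.sum_eq_zero
    intro u hu
    have hfu := hP u hu
    have hnuy : ¬ r u y := fun hh => hyn (Or.inr (Or.inr ⟨u, hfu, hh⟩))
    have hne : u ≠ y := by
      intro hh
      subst hh
      exact hyn (Or.inr (Or.inl hfu))
    have hyu : r y u := by
      by_contra hcon
      have hmu : Miss r u y := ⟨hne, hnuy, hcon⟩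
      have := hleaf u hmu.symm
      subst this
      exact hPT u hu ht
    rw [sf_of_arc' N r hr hyu]
    ring
  have hB : ∑ u ∈ T, max 0 (sf N r u y) ≤ N - 1 := by
    apply sum_le_of_unique_pos
    · omega
    · intro x _
      exact le_max_left _ _
    · intro x hx
      by_cases hxp : 0 < sf N r x y
      · exact max_sf_le N hN1 r (hty x hx hxp)
      · have : max 0 (sf N r x y) = 0 := max_eq_left (by omega)
        omega
    · intro x hx z hz hxp hzp
      rw [hleaf x (hty x hx (pos_of_max hxp)).symm, hleaf z (hty z hz (pos_of_max hzp)).symm]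
  rw [hA]
  omega

/-- The cost bound at a vertex with no positive label from the class `T`. -/
lemma cost_at_nonpos [Fintype V] (N : ℤ) (hN : (Fintype.card V : ℤ) + 1 = N) (r : V → V → Prop)
    (hr : ∀ u v, r u v → ¬ r v u) (f y : V) (P T : Finset V) (hP : ∀ u ∈ P, r f u)
    (hyn : ¬ Near r f y) (hT : ∀ t ∈ T, sf N r t y ≤ 0)
    (hnc : ∀ u ∈ P, Miss r u y → sf N r u y = 0 → ∀ u' ∈ P, u ≠ u' → ¬ Miss r u' y) :
    ∑ u ∈ P, (N + sf N r u y) + ∑ u ∈ T, max 0 (sf N r u y) ≤ N := by
  classical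
  have hPterm : ∀ u ∈ P, ¬ Miss r u y → N + sf N r u y = 0 := by
    intro u hu hnm
    have hfu := hP u hu
    have hnuy : ¬ r u y := fun hh => hyn (Or.inr (Or.inr ⟨u, hfu, hh⟩))
    have hne : u ≠ y := by
      intro hh
      subst hh
      exact hyn (Or.inr (Or.inl hfu))
    have hyu : r y u := by
      by_contra hcon
      exact hnm ⟨hne, hnuy, hcon⟩
    rw [sf_of_arc' N r hr hyu]
    ring
  have hPterm2 : ∀ u ∈ P, Miss r u y → sf N r u y = 0 ∨ sf N r u y = -(N - 1) := by
    intro u hu hm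
    have hbl : Blocked r u y := ⟨f, hP u hu, hyn⟩
    rw [sf_of_miss N r hm, cw_of_blocked N r hbl]
    unfold cw
    split_ifs <;> simp
  have hB : ∑ u ∈ T, max 0 (sf N r u y) = 0 := by
    apply Finset.sum_eq_zero
    intro t ht
    exact max_eq_left (hT t ht)
  rw [hB, add_zero]
  by_cases hzero : ∃ u ∈ P, Miss r u y ∧ sf N r u y = 0
  · obtain ⟨u, hu, hmu, h0⟩ := hzero
    rw [Finset.sum_eq_single_of_mem u hu]
    · rw [h0]
      omega
    · intro u' hu' hne
      exact hPterm u' hu' (hnc u hu hmu h0 u' hu' hne.symm)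
  · push Not at hzero
    have hle1 : ∀ u ∈ P, N + sf N r u y ≤ 1 := by
      intro u hu
      by_cases hm : Miss r u y
      · rcases hPterm2 u hu hm with h1 | h1
        · exact absurd h1 (hzero u hu hm)
        · rw [h1]
          omega
      · rw [hPterm u hu hm]
        omega
    calc ∑ u ∈ P, (N + sf N r u y) ≤ ∑ _u ∈ P, (1 : ℤ) := Finset.sum_le_sum hle1
      _ = P.card := by simp
      _ ≤ Fintype.card V := by exact_mod_cast Finset.card_le_univ P
      _ ≤ N := by omega

variable [Fintype V]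

/-- The counting step once the neutral class `T` and the costly class `R` are known. -/
lemma final_count [DecidableEq V] (r : V → V → Prop) (f : V) (T R X : Finset V)
    (hT : ∀ t ∈ T, t ≠ f ∧ ¬ r f t ∧ ∃ v, r f v ∧ r v t) (hcard : T.card = R.card)
    (hX : ∀ x, ¬ Near r f x → x ∉ R → x ∈ X)
    (hmain : (out r f).card ≤ ((univ : Finset V) \ (out r f ∪ T ∪ X ∪ {f})).card) :
    (out r f).card ≤ (second r f).card := by
  classical
  have hsub : (univ : Finset V) \ (out r f ∪ T ∪ X ∪ {f}) ⊆ (second r f \ T) ∪ R := by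
    intro v hv
    simp only [mem_sdiff, mem_univ, true_and, mem_union, mem_singleton, not_or] at hv
    obtain ⟨⟨⟨hvP, hvT⟩, hvX⟩, hvf⟩ := hv
    have hvr : ¬ r f v := fun hh => hvP (by simp [out, hh])
    by_cases hN : Near r f v
    · rcases hN with h1 | h1 | h1
      · exact absurd h1 hvf
      · exact absurd h1 hvr
      · apply mem_union_left
        simp only [second, mem_sdiff, mem_filter, mem_univ, true_and]
        exact ⟨⟨hvf, hvr, h1⟩, hvT⟩
    · apply mem_union_right
      by_contra hcon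
      exact hvX (hX v hN hcon)
  have hTsub : T ⊆ second r f := by
    intro t ht
    simp only [second, mem_filter, mem_univ, true_and]
    exact hT t ht
  have h1 := Finset.card_le_card hsub
  have h2 := Finset.card_union_le (second r f \ T) R
  have h3 := Finset.card_sdiff_add_card_eq_card hTsub
  omega

/-- **Seymour vertices for missing star forests.** -/
theorem exists_seymour_star_forest [Nonempty V] (r : V → V → Prop)
    (hr : ∀ u v, r u v → ¬ r v u) (hs : MissingStarForest r) :
    ∃ f : V, (out r f).card ≤ (second r f).card := by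
  classical
  have hirr : ∀ v, ¬ r v v := fun v h => hr v v h h
  obtain ⟨N, hNdef⟩ : ∃ N : ℤ, (Fintype.card V : ℤ) + 1 = N := ⟨_, rfl⟩
  have hcard : (1 : ℤ) ≤ Fintype.card V := by
    have : 0 < Fintype.card V := Fintype.card_pos
    omega
  have hN1 : 1 ≤ N := by omega
  have hN2 : 2 ≤ N := by omega
  obtain ⟨f, hf⟩ := exists_last_vertex_gain (sf N r) N hN1 (sf_anti N r hr) (sf_le N hN1 r)
  refine ⟨f, ?_⟩
  have hmemP : ∀ u, u ∈ out r f ↔ r f u := by
    intro u
    simp [out]
  obtain ⟨R, hmemR⟩ : ∃ R : Finset V, ∀ x, x ∈ R ↔ ¬ Near r f x ∧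
      ∃ u u', r f u ∧ r f u' ∧ u ≠ u' ∧ Miss r u x ∧ Miss r u' x ∧ sf N r u x = 0 :=
    ⟨univ.filter (fun x => ¬ Near r f x ∧
      ∃ u u', r f u ∧ r f u' ∧ u ≠ u' ∧ Miss r u x ∧ Miss r u' x ∧ sf N r u x = 0),
      fun x => by simp only [mem_filter, mem_univ, true_and]⟩
  have hpay : ∀ x ∈ R, ∃ h, Miss r f h ∧ r h x ∧ (h ≠ f ∧ ¬ r f h ∧ ∃ v, r f v ∧ r v h) ∧
      ∀ w, r h w → ¬ Near r f w → w = x := by
    intro x hx
    obtain ⟨hxn, u, u', hu, _, huu', hm, hm', h0⟩ := (hmemR x).mp hx
    exact exists_payer N hN2 r hr hs f x u u' hxn hu huu' hm hm' h0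
  choose! h hhM hhx hhS hhZ using hpay
  have hinj : Set.InjOn h R := by
    intro x hx x' hx' hxx
    have hx'n := ((hmemR x').mp hx').1
    have h1 : r (h x) x' := by
      rw [hxx]
      exact hhx x' hx'
    exact (hhZ x hx x' h1 hx'n).symm
  have hTcard : (R.image h).card = R.card := Finset.card_image_of_injOn hinj
  have hTsec : ∀ t ∈ R.image h, t ≠ f ∧ ¬ r f t ∧ ∃ v, r f v ∧ r v t := by
    intro t ht
    obtain ⟨x, hx, rfl⟩ := Finset.mem_image.mp ht
    exact hhS x hx
  have hTM : ∀ t ∈ R.image h, Miss r f t := by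
    intro t ht
    obtain ⟨x, hx, rfl⟩ := Finset.mem_image.mp ht
    exact hhM x hx
  have hTZ : ∀ t ∈ R.image h, ∀ w, r t w → ¬ Near r f w → w ∈ R := by
    intro t ht w htw hw
    obtain ⟨x, hx, rfl⟩ := Finset.mem_image.mp ht
    rw [hhZ x hx w htw hw]
    exact hx
  obtain ⟨X, hmemX⟩ : ∃ X : Finset V, ∀ x, x ∈ X ↔ ¬ Near r f x ∧ x ∉ R :=
    ⟨univ.filter (fun x => ¬ Near r f x ∧ x ∉ R),
      fun x => by simp only [mem_filter, mem_univ, true_and]⟩
  have hfP : f ∉ out r f := by
    rw [hmemP]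
    exact hirr f
  have hfT : f ∉ R.image h := fun ht => (hTsec f ht).1 rfl
  have hfX : f ∉ X := by
    rw [hmemX]
    intro hh
    exact hh.1 (Or.inl rfl)
  have hPT : ∀ v ∈ out r f, v ∉ R.image h := by
    intro v hv hvT
    exact (hTsec v hvT).2.1 ((hmemP v).mp hv)
  have hPX : ∀ v ∈ out r f, v ∉ X := by
    intro v hv hvX
    exact ((hmemX v).mp hvX).1 (Or.inr (Or.inl ((hmemP v).mp hv)))
  have hcf := cost_at_last N hN1 r hr hs f (out r f) (R.image h) (fun u hu => (hmemP u).mp hu) hTM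
  have hcost : ∀ y ∈ X, ∑ u ∈ out r f, (N + sf N r u y) +
      ∑ u ∈ R.image h, max 0 (sf N r u y) ≤ N := by
    intro y hy
    obtain ⟨hyn, hyR⟩ := (hmemX y).mp hy
    have hyf : y ≠ f := fun hh => hyn (Or.inl hh)
    have hTy : ∀ t ∈ R.image h, ¬ r t y := fun t ht htw => hyR (hTZ t ht y htw hyn)
    have hty : ∀ t ∈ R.image h, 0 < sf N r t y → Miss r t y := by
      intro t ht hpos
      have hne : t ≠ y := by
        intro hh
        subst hh
        obtain ⟨_, _, v, hv, hvt⟩ := hTsec t ht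
        exact hyn (Or.inr (Or.inr ⟨v, hv, hvt⟩))
      refine ⟨hne, hTy t ht, ?_⟩
      intro hyt
      rw [sf_of_arc' N r hr hyt] at hpos
      omega
    by_cases hpos : ∃ t ∈ R.image h, 0 < sf N r t y
    · obtain ⟨t, ht, htp⟩ := hpos
      have hm := hty t ht htp
      have hleaf : ∀ w, Miss r y w → w = t := by
        rcases hs t y hm with h1 | h1
        · exact absurd (h1 f (hTM t ht).symm).symm hyf
        · exact h1
      exact cost_at_pos N hN1 r hr f y t (out r f) (R.image h) (fun u hu => (hmemP u).mp hu) hPT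
        hyn ht hleaf hty
    · push Not at hpos
      apply cost_at_nonpos N hNdef r hr f y (out r f) (R.image h) (fun u hu => (hmemP u).mp hu)
        hyn hpos
      intro u hu hmu h0 u' hu' hne hm'
      apply hyR
      rw [hmemR]
      exact ⟨hyn, u, u', (hmemP u).mp hu, (hmemP u').mp hu', hne, hmu, hm', h0⟩
  have hmain := hf (out r f) (R.image h) X hfP hfT hfX hPT hPX hcf hcost
  exact final_count r f (R.image h) R X hTsec hTcard (fun x h1 h2 => (hmemX x).mpr ⟨h1, h2⟩) hmain

end Vale.Agent.Lib.P038
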