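import Mathlib
import Vale.Agent.Lib.P038.Defs
import Vale.Agent.Lib.P038.Miss
import Vale.Agent.Lib.P038.MissGraph
import Vale.Agent.Lib.P038.Rank
import Vale.Agent.Lib.P038.Gain
import Vale.Agent.Lib.P038.StarForest

/-!
Oriented graphs whose missing edges form a forest have a vertex `f` with `|N⁺(f)| ≤ |N⁺⁺(f)|`.
-/

namespace Vale.Agent.Lib.P038

open Finset

variable {V : Type*}

/-- The direction from `u` to `x` of a missing edge is allowed if every in-neighbour `f` of `u`
that has `x` out of reach has a partner `h`: an in-neighbour of `x` with `u` out of reach, which is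
in the second out-neighbourhood of `f`, and whose only out-neighbour out of reach of `f` is `x`. -/
def Allowed (r : V → V → Prop) (u x : V) : Prop :=
  ∀ f, r f u → ¬ Near r f x →
    ∃ h, r h x ∧ ¬ Near r h u ∧ (h ≠ f ∧ ¬ r f h ∧ ∃ v, r f v ∧ r v h) ∧
      ∀ w, r h w → ¬ Near r f w → w = x

/-- The graph of missing edges has no cycle of length four. -/
def NoSquare (r : V → V → Prop) : Prop :=
  ∀ a b c d, Miss r a b → Miss r b c → Miss r c d → Miss r d a → a ≠ c → b ≠ d → False

/-- Without four-cycles of missing edges, at least one direction of every pair is allowed. -/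
lemma allowed_or (r : V → V → Prop) (hr : ∀ u v, r u v → ¬ r v u) (hns : NoSquare r) (u x : V) :
    Allowed r u x ∨ Allowed r x u := by
  by_contra hcon
  simp only [not_or, Allowed] at hcon
  obtain ⟨h1, h2⟩ := hcon
  push Not at h1 h2
  obtain ⟨f, hfu, hfx, hf⟩ := h1
  obtain ⟨h, hhx, hhu, hh⟩ := h2
  have hirr : ∀ v, ¬ r v v := fun v hv => hr v v hv hv
  have hnfx : ¬ r f x := fun hh' => hfx (Or.inr (Or.inl hh'))
  have hnhu : ¬ r h u := fun hh' => hhu (Or.inr (Or.inl hh'))
  have hhf : h ≠ f := fun e => hnfx (e ▸ hhx)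
  have hnfh : ¬ r f h := fun hh' => hfx (Or.inr (Or.inr ⟨h, hh', hhx⟩))
  have hnhf : ¬ r h f := fun hh' => hhu (Or.inr (Or.inr ⟨f, hh', hfu⟩))
  have hfune : f ≠ u := fun e => hirr f (by rw [← e] at hfu; exact hfu)
  have hhxne : h ≠ x := fun e => hirr h (by rw [← e] at hhx; exact hhx)
  have hYZ : ∀ u' x', r f u' → ¬ Near r h u' → r h x' → ¬ Near r f x' → Miss r u' x' := by
    intro u' x' h1 h2 h3 h4
    refine ⟨?_, fun h5 => h4 (Or.inr (Or.inr ⟨u', h1, h5⟩)),
      fun h5 => h2 (Or.inr (Or.inr ⟨x', h3, h5⟩))⟩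
    intro e
    rw [e] at h1
    exact h4 (Or.inr (Or.inl h1))
  have hux := hYZ u x hfu hhu hhx hfx
  have hfh : Miss r f h := ⟨hhf.symm, hnfh, hnhf⟩
  by_cases hA : ∃ v, r f v ∧ r v h
  · by_cases hC : ∃ v, r h v ∧ r v f
    · obtain ⟨x', h3, h4, h5⟩ := hf h hhx hhu ⟨hhf, hnfh, hA⟩
      obtain ⟨u', h6, h7, h8⟩ := hh f hfu hfx ⟨hhf.symm, hnhf, hC⟩
      exact hns u x u' x' hux (hYZ u' x h6 h7 hhx hfx).symm (hYZ u' x' h6 h7 h3 h4)
        (hYZ u x' hfu hhu h3 h4).symm h8.symm h5.symm
    · push Not at hC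
      have hxf : Miss r x f := ⟨fun e => hhf (by
        rw [e] at hhx
        exact absurd hhx hnhf), hC x hhx, hnfx⟩
      obtain ⟨x', h3, h4, h5⟩ := hf h hhx hhu ⟨hhf, hnfh, hA⟩
      have hx'f : Miss r x' f := ⟨fun e => hnhf (e ▸ h3), hC x' h3,
        fun h6 => h4 (Or.inr (Or.inl h6))⟩
      exact hns f x u x' hxf.symm hux.symm (hYZ u x' hfu hhu h3 h4) hx'f hfune h5.symm
  · push Not at hA
    by_cases hC : ∃ v, r h v ∧ r v f
    · have huh : Miss r u h := ⟨fun e => hnfh (e ▸ hfu), hA u hfu, hnhu⟩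
      obtain ⟨u', h6, h7, h8⟩ := hh f hfu hfx ⟨hhf.symm, hnhf, hC⟩
      have hu'h : Miss r u' h := ⟨fun e => hnfh (e ▸ h6), hA u' h6,
        fun h9 => h7 (Or.inr (Or.inl h9))⟩
      exact hns h u x u' huh.symm hux (hYZ u' x h6 h7 hhx hfx).symm hu'h hhxne h8.symm
    · push Not at hC
      have huh : Miss r u h := ⟨fun e => hnfh (e ▸ hfu), hA u hfu, hnhu⟩
      have hxf : Miss r x f := ⟨fun e => hhf (by
        rw [e] at hhx
        exact absurd hhx hnhf), hC x hhx, hnfx⟩
      exact hns f h u x hfh huh.symm hux hxf hfune hhxne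

/-- A rank function with at most one smaller neighbour at each vertex excludes four-cycles. -/
lemma noSquare_of_rank (r : V → V → Prop) (d : V → ℕ) (hd1 : ∀ u v, Miss r u v → d u ≠ d v)
    (hd2 : ∀ v p q, Miss r v p → Miss r v q → d p < d v → d q < d v → p = q) : NoSquare r := by
  intro a b c e hab hbc hce hea hac hbe
  have h1 := hd1 a b hab
  have h2 := hd1 b c hbc
  have h3 := hd1 c e hce
  have h4 := hd1 e a hea
  have h5 : ¬ (d a < d b ∧ d c < d b) := fun h => hac (hd2 b a c hab.symm hbc h.1 h.2)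
  have h6 : ¬ (d b < d c ∧ d e < d c) := fun h => hbe (hd2 c b e hbc.symm hce h.1 h.2)
  have h7 : ¬ (d c < d e ∧ d a < d e) := fun h => hac (hd2 e c a hce.symm hea h.1 h.2).symm
  have h8 : ¬ (d e < d a ∧ d b < d a) := fun h => hbe.symm (hd2 a e b hea.symm hab h.1 h.2)
  omega

/-- The chosen direction of a missing edge: an allowed one, using the rank to break ties. -/
def ori (r : V → V → Prop) (d : V → ℕ) (u v : V) : Prop :=
  Miss r u v ∧ Allowed r u v ∧ (Allowed r v u → d u < d v)

lemma ori_not (r : V → V → Prop) (d : V → ℕ) {u v : V} (h : ori r d u v) : ¬ ori r d v u := by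
  intro h2
  have h3 := h.2.2 h2.2.1
  have h4 := h2.2.2 h.2.1
  omega

lemma ori_total (r : V → V → Prop) (hr : ∀ u v, r u v → ¬ r v u) (d : V → ℕ)
    (hd1 : ∀ u v, Miss r u v → d u ≠ d v) (hns : NoSquare r) {u v : V} (hm : Miss r u v) :
    ori r d u v ∨ ori r d v u := by
  have hne := hd1 u v hm
  by_cases h1 : Allowed r u v
  · by_cases h2 : Allowed r v u
    · by_cases h3 : d u < d v
      · exact Or.inl ⟨hm, h1, fun _ => h3⟩
      · exact Or.inr ⟨hm.symm, h2, fun _ => by omega⟩
    · exact Or.inl ⟨hm, h1, fun h => absurd h h2⟩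
  · rcases allowed_or r hr hns u v with h | h
    · exact absurd h h1
    · exact Or.inr ⟨hm.symm, h, fun h' => absurd h' h1⟩

open Classical in
/-- The weight of a direction of a missing edge. -/
noncomputable def fw (r : V → V → Prop) (d : V → ℕ) (N M : ℤ) (e : V → ℤ) (u v : V) : ℤ :=
  if ori r d u v then (if d u < d v then N - e u else M * e v) else 0

open Classical in
/-- The labelling for missing forests. -/
noncomputable def flab (r : V → V → Prop) (d : V → ℕ) (N M : ℤ) (e : V → ℤ) (u v : V) : ℤ :=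
  if r u v then N else if r v u then -N else fw r d N M e u v - fw r d N M e v u

section Weights

variable (r : V → V → Prop) (d : V → ℕ) (N M : ℤ) (e : V → ℤ)

lemma flab_anti (hr : ∀ u v, r u v → ¬ r v u) (u v : V) :
    flab r d N M e u v = - flab r d N M e v u := by
  classical
  unfold flab
  by_cases h1 : r u v
  · have h2 := hr u v h1
    simp [h1, h2]
  · by_cases h2 : r v u
    · simp [h1, h2]
    · simp only [h1, h2, if_false]
      ring

lemma flab_of_arc {u v : V} (h : r u v) : flab r d N M e u v = N := by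
  classical
  simp [flab, h]

lemma flab_of_arc' (hr : ∀ u v, r u v → ¬ r v u) {u v : V} (h : r v u) :
    flab r d N M e u v = -N := by
  classical
  have := hr v u h
  simp [flab, h, this]

lemma flab_of_miss {u v : V} (h : Miss r u v) :
    flab r d N M e u v = fw r d N M e u v - fw r d N M e v u := by
  classical
  simp [flab, h.2.1, h.2.2]

lemma fw_of_ori {u v : V} (h : ori r d u v) :
    fw r d N M e u v = if d u < d v then N - e u else M * e v := by
  classical
  simp [fw, h]

lemma fw_of_not {u v : V} (h : ¬ ori r d u v) : fw r d N M e u v = 0 := by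
  classical
  simp [fw, h]

variable (hM : 1 ≤ M) (he1 : ∀ v, 1 ≤ e v) (he3 : ∀ v, M ^ 2 * e v ≤ N)

include hM he1 he3 in
lemma ge_of_weights (v : V) : M * e v ≤ N ∧ e v ≤ N := by
  have h1 := he1 v
  have h3 := he3 v
  have h4 : 0 ≤ (M - 1) * e v := mul_nonneg (by omega) (by omega)
  have h5 : 0 ≤ M * ((M - 1) * e v) := mul_nonneg (by omega) h4
  constructor <;> nlinarith

include hM he1 he3 in
lemma fw_nonneg (u v : V) : 0 ≤ fw r d N M e u v := by
  classical
  unfold fw
  have h1 := (ge_of_weights N M e hM he1 he3 u).2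
  have h2 := he1 v
  split_ifs
  · omega
  · nlinarith
  · exact le_refl _

include hM he1 he3 in
lemma fw_le (u v : V) : fw r d N M e u v ≤ N := by
  classical
  unfold fw
  have h0 := he1 u
  have h1 := (ge_of_weights N M e hM he1 he3 v).1
  have h2 := (ge_of_weights N M e hM he1 he3 u).2
  split_ifs
  · omega
  · exact h1
  · omega

include hM he1 he3 in
lemma flab_le (u v : V) : flab r d N M e u v ≤ N := by
  classical
  have h0 := he1 u
  have h2 := (ge_of_weights N M e hM he1 he3 u).2
  unfold flab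
  have h3 := fw_le r d N M e hM he1 he3 u v
  have h4 := fw_nonneg r d N M e hM he1 he3 v u
  split_ifs <;> omega

end Weights

variable [Fintype V]

/-- The cost bound at the last vertex. -/
lemma forest_cost_last (r : V → V → Prop) (hr : ∀ u v, r u v → ¬ r v u) (d : V → ℕ)
    (hd2 : ∀ v p q, Miss r v p → Miss r v q → d p < d v → d q < d v → p = q)
    (N M : ℤ) (e : V → ℤ) (hM : (Fintype.card V : ℤ) + 2 ≤ M) (he1 : ∀ v, 1 ≤ e v)
    (he2 : ∀ u v, d u < d v → M ^ 2 * e v ≤ e u) (he3 : ∀ v, M ^ 2 * e v ≤ N)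
    (f : V) (P T : Finset V) (hP : ∀ u ∈ P, r f u) (hT : ∀ t ∈ T, Miss r f t) :
    ∑ u ∈ P, (N + flab r d N M e u f) + ∑ t ∈ T, max 0 (flab r d N M e t f) ≤ N - 1 := by
  classical
  have hcard : (0 : ℤ) ≤ Fintype.card V := by positivity
  have hM1 : 1 ≤ M := by omega
  have h0 : ∑ u ∈ P, (N + flab r d N M e u f) = 0 := by
    apply Finset.sum_eq_zero
    intro u hu
    rw [flab_of_arc' r d N M e hr (hP u hu)]
    ring
  rw [h0, zero_add]
  have hX : 1 ≤ M * e f := by nlinarith [he1 f]
  have hTc : (T.card : ℤ) ≤ Fintype.card V := by exact_mod_cast Finset.card_le_univ T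
  have hterm : ∀ t ∈ T, max 0 (flab r d N M e t f) ≤ if d t < d f then N - e t else M * e f := by
    intro t ht
    have hm := (hT t ht).symm
    rw [flab_of_miss r d N M e hm]
    have h4 := fw_nonneg r d N M e hM1 he1 he3 f t
    have h5 : fw r d N M e t f ≤ if d t < d f then N - e t else M * e f := by
      by_cases ho : ori r d t f
      · rw [fw_of_ori r d N M e ho]
      · rw [fw_of_not r d N M e ho]
        split_ifs
        · have := (ge_of_weights N M e hM1 he1 he3 t).2
          omega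
        · omega
    apply max_le
    · split_ifs
      · have := (ge_of_weights N M e hM1 he1 he3 t).2
        omega
      · omega
    · omega
  have hsum := Finset.sum_le_sum hterm
  by_cases hex : ∃ t0 ∈ T, d t0 < d f
  · obtain ⟨t0, ht0, hlt⟩ := hex
    have hother : ∀ t ∈ T.erase t0, (if d t < d f then N - e t else M * e f) = M * e f := by
      intro t ht
      have hne := Finset.ne_of_mem_erase ht
      have hmem := Finset.mem_of_mem_erase ht
      have : ¬ d t < d f := fun hl => hne (hd2 f t t0 (hT t hmem) (hT t0 ht0) hl hlt)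
      simp [this]
    have hsplit := Finset.add_sum_erase T
      (fun t => if d t < d f then N - e t else M * e f) ht0
    simp only [hlt, if_true] at hsplit
    rw [Finset.sum_congr rfl hother, Finset.sum_const, nsmul_eq_mul] at hsplit
    have hcardE : ((T.erase t0).card : ℤ) ≤ Fintype.card V := by
      exact_mod_cast Finset.card_le_univ _
    have h6 := he2 t0 f hlt
    have h7 : ((T.erase t0).card : ℤ) * (M * e f) ≤ (M - 2) * (M * e f) :=
      mul_le_mul_of_nonneg_right (by omega) (by omega)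
    have h8 : (M - 2) * (M * e f) = M ^ 2 * e f - 2 * (M * e f) := by ring
    linarith
  · push Not at hex
    have hall : ∀ t ∈ T, (if d t < d f then N - e t else M * e f) = M * e f := by
      intro t ht
      have : ¬ d t < d f := by
        have := hex t ht
        omega
      simp [this]
    rw [Finset.sum_congr rfl hall, Finset.sum_const, nsmul_eq_mul] at hsum
    have h7 : (T.card : ℤ) * (M * e f) ≤ (M - 2) * (M * e f) :=
      mul_le_mul_of_nonneg_right (by omega) (by omega)
    have h8 : (M - 2) * (M * e f) = M ^ 2 * e f - 2 * (M * e f) := by ring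
    have h9 := he3 f
    linarith

/-- The cost bound at a far vertex outside the costly class. -/
lemma forest_cost_far (r : V → V → Prop) (hr : ∀ u v, r u v → ¬ r v u) (d : V → ℕ)
    (hd1 : ∀ u v, Miss r u v → d u ≠ d v)
    (hd2 : ∀ v p q, Miss r v p → Miss r v q → d p < d v → d q < d v → p = q)
    (N M : ℤ) (e : V → ℤ) (hM : (Fintype.card V : ℤ) + 2 ≤ M) (he1 : ∀ v, 1 ≤ e v)
    (he2 : ∀ u v, d u < d v → M ^ 2 * e v ≤ e u) (he3 : ∀ v, M ^ 2 * e v ≤ N)
    (f y : V) (P T : Finset V) (hP : ∀ u ∈ P, r f u) (hyn : ¬ Near r f y)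
    (hnr : ∀ u ∈ P, ¬ ori r d u y) (hT : ∀ t ∈ T, Miss r f t) (hTy : ∀ t ∈ T, ¬ r t y)
    (hPT : ∀ v ∈ P, v ∉ T) (hTne : ∀ t ∈ T, t ≠ y) :
    ∑ u ∈ P, (N + flab r d N M e u y) + ∑ t ∈ T, max 0 (flab r d N M e t y) ≤ N := by
  classical
  have hns := noSquare_of_rank r d hd1 hd2
  have hcard : (0 : ℤ) ≤ Fintype.card V := by positivity
  have hM1 : 1 ≤ M := by omega
  have hM2 : 2 ≤ M := by
    have : 0 < Fintype.card V ∨ Fintype.card V = 0 := by omega
    omega
  have hY := he1 y
  have hN1 : 1 ≤ N := by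
    have := (ge_of_weights N M e hM1 he1 he3 y).2
    omega
  have hyf : y ≠ f := fun h => hyn (Or.inl h)
  have hPc : (P.card : ℤ) ≤ Fintype.card V := by exact_mod_cast Finset.card_le_univ P
  -- terms over `P`
  have hori : ∀ u ∈ P, Miss r u y → ori r d y u := by
    intro u hu hm
    rcases ori_total r hr d hd1 hns hm with h | h
    · exact absurd h (hnr u hu)
    · exact h
  have hPterm0 : ∀ u ∈ P, ¬ Miss r u y → N + flab r d N M e u y = 0 := by
    intro u hu hnm
    have hfu := hP u hu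
    have hnuy : ¬ r u y := fun hh => hyn (Or.inr (Or.inr ⟨u, hfu, hh⟩))
    have hne : u ≠ y := by
      intro hh
      rw [hh] at hfu
      exact hyn (Or.inr (Or.inl hfu))
    have hyu : r y u := by
      by_contra hcon
      exact hnm ⟨hne, hnuy, hcon⟩
    rw [flab_of_arc' r d N M e hr hyu]
    ring
  have hPflab : ∀ u ∈ P, Miss r u y →
      flab r d N M e u y = - (if d y < d u then N - e y else M * e u) := by
    intro u hu hm
    have ho := hori u hu hm
    rw [flab_of_miss r d N M e hm, fw_of_ori r d N M e ho,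
      fw_of_not r d N M e (ori_not r d ho)]
    ring
  have hPchild : ∀ u ∈ P, ¬ (Miss r u y ∧ d u < d y) → N + flab r d N M e u y ≤ e y := by
    intro u hu hc
    by_cases hm : Miss r u y
    · have hlt : d y < d u := by
        have h1 := hd1 u y hm
        have h2 : ¬ d u < d y := fun h => hc ⟨hm, h⟩
        omega
      rw [hPflab u hu hm]
      simp [hlt]
    · rw [hPterm0 u hu hm]
      omega
  have hAle : (∀ u ∈ P, ¬ (Miss r u y ∧ d u < d y)) →
      ∑ u ∈ P, (N + flab r d N M e u y) ≤ (Fintype.card V : ℤ) * e y := by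
    intro hall
    have h1 : ∑ u ∈ P, (N + flab r d N M e u y) ≤ ∑ _u ∈ P, e y :=
      Finset.sum_le_sum (fun u hu => hPchild u hu (hall u hu))
    rw [Finset.sum_const, nsmul_eq_mul] at h1
    have h2 : (P.card : ℤ) * e y ≤ (Fintype.card V : ℤ) * e y :=
      mul_le_mul_of_nonneg_right hPc (by omega)
    linarith
  have hAle2 : ∀ u0 ∈ P, Miss r u0 y → d u0 < d y →
      ∑ u ∈ P, (N + flab r d N M e u y) ≤ N - M * e u0 + (Fintype.card V : ℤ) * e y := by
    intro u0 hu0 hm hlt
    have h1 := Finset.add_sum_erase P (fun u => N + flab r d N M e u y) hu0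
    have hne : ¬ d y < d u0 := by omega
    have h2 : N + flab r d N M e u0 y = N - M * e u0 := by
      rw [hPflab u0 hu0 hm]
      simp only [hne, if_false]
      ring
    have h3 : ∑ u ∈ P.erase u0, (N + flab r d N M e u y) ≤ ∑ _u ∈ P.erase u0, e y := by
      apply Finset.sum_le_sum
      intro u hu
      apply hPchild u (Finset.mem_of_mem_erase hu)
      rintro ⟨h5, h6⟩
      exact (Finset.ne_of_mem_erase hu) (hd2 y u u0 h5.symm hm.symm h6 hlt)
    rw [Finset.sum_const, nsmul_eq_mul] at h3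
    have h4 : ((P.erase u0).card : ℤ) * e y ≤ (Fintype.card V : ℤ) * e y :=
      mul_le_mul_of_nonneg_right (by exact_mod_cast Finset.card_le_univ _) (by omega)
    linarith
  -- terms over `T`
  have hpos : ∀ t ∈ T, 0 < flab r d N M e t y → Miss r t y ∧ ori r d t y := by
    intro t ht hp
    have hm : Miss r t y := by
      refine ⟨hTne t ht, hTy t ht, ?_⟩
      intro hyt
      rw [flab_of_arc' r d N M e hr hyt] at hp
      omega
    refine ⟨hm, ?_⟩
    by_contra hno
    rw [flab_of_miss r d N M e hm, fw_of_not r d N M e hno] at hp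
    have := fw_nonneg r d N M e hM1 he1 he3 y t
    omega
  have huniq : ∀ t ∈ T, ∀ t' ∈ T, 0 < flab r d N M e t y → 0 < flab r d N M e t' y → t = t' := by
    intro t ht t' ht' hp hp'
    by_contra hne
    exact hns f t y t' (hT t ht) (hpos t ht hp).1 (hpos t' ht' hp').1.symm (hT t' ht').symm
      hyf.symm hne
  have hnM : (Fintype.card V : ℤ) + M ≤ M ^ 2 := by nlinarith
  have hnY : (Fintype.card V : ℤ) * e y ≤ M ^ 2 * e y :=
    mul_le_mul_of_nonneg_right (by nlinarith) (by omega)
  have h3y := he3 y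
  by_cases hex : ∃ t0 ∈ T, 0 < flab r d N M e t0 y
  · obtain ⟨t0, ht0, hp0⟩ := hex
    have hB : ∑ t ∈ T, max 0 (flab r d N M e t y) = flab r d N M e t0 y := by
      rw [Finset.sum_eq_single_of_mem t0 ht0]
      · exact max_eq_right hp0.le
      · intro t ht hne
        apply max_eq_left
        by_contra hcon
        exact hne (huniq t ht t0 ht0 (by omega) hp0)
    obtain ⟨hm0, ho0⟩ := hpos t0 ht0 hp0
    have hval : flab r d N M e t0 y = if d t0 < d y then N - e t0 else M * e y := by
      rw [flab_of_miss r d N M e hm0, fw_of_ori r d N M e ho0,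
        fw_of_not r d N M e (ori_not r d ho0)]
      ring
    rw [hB, hval]
    by_cases hlt : d t0 < d y
    · simp only [hlt, if_true]
      have hnop : ∀ u ∈ P, ¬ (Miss r u y ∧ d u < d y) := by
        rintro u hu ⟨h5, h6⟩
        have : u = t0 := hd2 y u t0 h5.symm hm0.symm h6 hlt
        exact hPT u hu (this ▸ ht0)
      have h1 := hAle hnop
      have h2 := he2 t0 y hlt
      linarith
    · simp only [hlt, if_false]
      by_cases hpar : ∃ u0 ∈ P, Miss r u0 y ∧ d u0 < d y
      · obtain ⟨u0, hu0, hm, hl⟩ := hpar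
        have h1 := hAle2 u0 hu0 hm hl
        have h2 := he2 u0 y hl
        have h4 : M * (M ^ 2 * e y) ≤ M * e u0 := mul_le_mul_of_nonneg_left h2 (by omega)
        have h5 : ((Fintype.card V : ℤ) + M) * e y ≤ M ^ 2 * e y :=
          mul_le_mul_of_nonneg_right hnM (by omega)
        have h6 : M ^ 2 * e y ≤ M * (M ^ 2 * e y) := by nlinarith [mul_pos (by omega : 0 < M) (by omega : 0 < M), mul_pos (mul_pos (by omega : 0 < M) (by omega : 0 < M)) (by omega : 0 < e y)]
        nlinarith
      · push Not at hpar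
        have h1 := hAle (fun u hu hc => by
          have := hpar u hu hc.1
          omega)
        have h5 : ((Fintype.card V : ℤ) + M) * e y ≤ M ^ 2 * e y :=
          mul_le_mul_of_nonneg_right hnM (by omega)
        nlinarith
  · push Not at hex
    have hB : ∑ t ∈ T, max 0 (flab r d N M e t y) = 0 := by
      apply Finset.sum_eq_zero
      intro t ht
      exact max_eq_left (hex t ht)
    rw [hB, add_zero]
    by_cases hpar : ∃ u0 ∈ P, Miss r u0 y ∧ d u0 < d y
    · obtain ⟨u0, hu0, hm, hl⟩ := hpar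
      have h1 := hAle2 u0 hu0 hm hl
      have h2 := he2 u0 y hl
      have h4 : M * (M ^ 2 * e y) ≤ M * e u0 := mul_le_mul_of_nonneg_left h2 (by omega)
      have h6 : M ^ 2 * e y ≤ M * (M ^ 2 * e y) := by nlinarith [mul_pos (by omega : 0 < M) (by omega : 0 < M), mul_pos (mul_pos (by omega : 0 < M) (by omega : 0 < M)) (by omega : 0 < e y)]
      linarith
    · push Not at hpar
      have h1 := hAle (fun u hu hc => by
        have := hpar u hu hc.1
        omega)
      linarith

/-- **Seymour vertices from a rank function on the missing edges.** -/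
theorem exists_seymour_of_rank [Nonempty V] (r : V → V → Prop) (hr : ∀ u v, r u v → ¬ r v u)
    (d : V → ℕ) (hd1 : ∀ u v, Miss r u v → d u ≠ d v)
    (hd2 : ∀ v p q, Miss r v p → Miss r v q → d p < d v → d q < d v → p = q) :
    ∃ f : V, (out r f).card ≤ (second r f).card := by
  classical
  have hirr : ∀ v, ¬ r v v := fun v h => hr v v h h
  obtain ⟨M, hMdef⟩ : ∃ M : ℤ, (Fintype.card V : ℤ) + 2 = M := ⟨_, rfl⟩
  have hcard : (1 : ℤ) ≤ Fintype.card V := by
    have : 0 < Fintype.card V := Fintype.card_pos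
    omega
  have hM1 : 1 ≤ M := by omega
  obtain ⟨D, hD⟩ : ∃ D : ℕ, ∀ v, d v ≤ D :=
    ⟨univ.sup d, fun v => Finset.le_sup (f := d) (mem_univ v)⟩
  obtain ⟨e, he⟩ : ∃ e : V → ℤ, ∀ v, e v = M ^ (2 * (D - d v)) := ⟨_, fun _ => rfl⟩
  obtain ⟨N, hN⟩ : ∃ N : ℤ, N = M ^ (2 * D + 2) := ⟨_, rfl⟩
  have he1 : ∀ v, 1 ≤ e v := by
    intro v
    rw [he]
    exact one_le_pow₀ hM1
  have he2 : ∀ u v, d u < d v → M ^ 2 * e v ≤ e u := by
    intro u v hlt
    rw [he, he, ← pow_add]
    apply pow_le_pow_right₀ hM1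
    have := hD v
    omega
  have he3 : ∀ v, M ^ 2 * e v ≤ N := by
    intro v
    rw [he, hN, ← pow_add]
    apply pow_le_pow_right₀ hM1
    omega
  have hN1 : 1 ≤ N := by
    rw [hN]
    exact one_le_pow₀ hM1
  obtain ⟨f, hf⟩ := exists_last_vertex_gain (flab r d N M e) N hN1
    (flab_anti r d N M e hr) (flab_le r d N M e hM1 he1 he3)
  refine ⟨f, ?_⟩
  have hmemP : ∀ u, u ∈ out r f ↔ r f u := by
    intro u
    simp [out]
  obtain ⟨R, hmemR⟩ : ∃ R : Finset V, ∀ x, x ∈ R ↔ ¬ Near r f x ∧ ∃ u, r f u ∧ ori r d u x :=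
    ⟨univ.filter (fun x => ¬ Near r f x ∧ ∃ u, r f u ∧ ori r d u x),
      fun x => by simp only [mem_filter, mem_univ, true_and]⟩
  have hpay : ∀ x ∈ R, ∃ h, Miss r f h ∧ r h x ∧ (h ≠ f ∧ ¬ r f h ∧ ∃ v, r f v ∧ r v h) ∧
      ∀ w, r h w → ¬ Near r f w → w = x := by
    intro x hx
    obtain ⟨hxn, u, hu, ho⟩ := (hmemR x).mp hx
    obtain ⟨h, h1, h2, h3, h4⟩ := ho.2.1 f hu hxn
    refine ⟨h, ⟨h3.1.symm, h3.2.1, fun h5 => h2 (Or.inr (Or.inr ⟨f, h5, hu⟩))⟩, h1, h3, h4⟩
  choose! h hhM hhx hhS hhZ using hpay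
  have hinj : Set.InjOn h R := by
    intro x hx x' hx' hxx
    have hx'n := ((hmemR x').mp hx').1
    have h1 : r (h x) x' := by
      rw [hxx]
      exact hhx x' hx'
    exact (hhZ x hx x' h1 hx'n).symm
  have hTcard : (R.image h).card = R.card := Finset.card_image_of_injOn hinj
  have hTsec : ∀ t ∈ R.image h, t ≠ f ∧ ¬ r f t ∧ ∃ v, r f v ∧ r v t := by
    intro t ht
    obtain ⟨x, hx, rfl⟩ := Finset.mem_image.mp ht
    exact hhS x hx
  have hTM : ∀ t ∈ R.image h, Miss r f t := by
    intro t ht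
    obtain ⟨x, hx, rfl⟩ := Finset.mem_image.mp ht
    exact hhM x hx
  have hTZ : ∀ t ∈ R.image h, ∀ w, r t w → ¬ Near r f w → w ∈ R := by
    intro t ht w htw hw
    obtain ⟨x, hx, rfl⟩ := Finset.mem_image.mp ht
    rw [hhZ x hx w htw hw]
    exact hx
  obtain ⟨X, hmemX⟩ : ∃ X : Finset V, ∀ x, x ∈ X ↔ ¬ Near r f x ∧ x ∉ R :=
    ⟨univ.filter (fun x => ¬ Near r f x ∧ x ∉ R),
      fun x => by simp only [mem_filter, mem_univ, true_and]⟩
  have hfP : f ∉ out r f := by
    rw [hmemP]
    exact hirr f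
  have hfT : f ∉ R.image h := fun ht => (hTsec f ht).1 rfl
  have hfX : f ∉ X := by
    rw [hmemX]
    intro hh
    exact hh.1 (Or.inl rfl)
  have hPT : ∀ v ∈ out r f, v ∉ R.image h := by
    intro v hv hvT
    exact (hTsec v hvT).2.1 ((hmemP v).mp hv)
  have hPX : ∀ v ∈ out r f, v ∉ X := by
    intro v hv hvX
    exact ((hmemX v).mp hvX).1 (Or.inr (Or.inl ((hmemP v).mp hv)))
  have hP' : ∀ u ∈ out r f, r f u := fun u hu => (hmemP u).mp hu
  have hcf := forest_cost_last r hr d hd2 N M e (by omega) he1 he2 he3 f (out r f) (R.image h) hP'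
    hTM
  have hcost : ∀ y ∈ X, ∑ u ∈ out r f, (N + flab r d N M e u y) +
      ∑ t ∈ R.image h, max 0 (flab r d N M e t y) ≤ N := by
    intro y hy
    obtain ⟨hyn, hyR⟩ := (hmemX y).mp hy
    apply forest_cost_far r hr d hd1 hd2 N M e (by omega) he1 he2 he3 f y (out r f) (R.image h)
      hP' hyn _ hTM (fun t ht htw => hyR (hTZ t ht y htw hyn)) hPT
    · intro t ht hty
      obtain ⟨_, _, v, hv, hvt⟩ := hTsec t ht
      rw [hty] at hvt
      exact hyn (Or.inr (Or.inr ⟨v, hv, hvt⟩))
    · intro u hu ho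
      exact hyR ((hmemR y).mpr ⟨hyn, u, hP' u hu, ho⟩)
  have hmain := hf (out r f) (R.image h) X hfP hfT hfX hPT hPX hcf hcost
  exact final_count r f (R.image h) R X hTsec hTcard (fun x h1 h2 => (hmemX x).mpr ⟨h1, h2⟩) hmain

/-- **Seymour vertices for missing forests.** -/
theorem exists_seymour_forest [Nonempty V] (r : V → V → Prop) (hr : ∀ u v, r u v → ¬ r v u)
    (hG : (missingGraph r).IsAcyclic) : ∃ f : V, (out r f).card ≤ (second r f).card := by
  obtain ⟨d, hd1, hd2⟩ := exists_rank (missingGraph r) hG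
  exact exists_seymour_of_rank r hr d hd1 hd2

end Vale.Agent.Lib.P038
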