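import Mathlib
import Vale.Agent.Lib.P038.Defs
import Vale.Agent.Lib.P038.Median

/-!
The defect inequality for oriented graphs, from the median partition theorem.
-/

namespace Vale.Agent.Lib.P038

open Finset

variable {V : Type*} [Fintype V]

open Classical in
/-- The labelling: arcs get `±1`; a missing edge with exactly one unblocked direction gets `1` in
that direction; other pairs get `0`. -/
noncomputable def lab (r : V → V → Prop) (u v : V) : ℤ :=
  if r u v then 1 else if r v u then -1 else
    if ¬ Blocked r u v ∧ Blocked r v u then 1 else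
      if Blocked r u v ∧ ¬ Blocked r v u then -1 else 0

lemma lab_anti (r : V → V → Prop) (hr : ∀ u v, r u v → ¬ r v u) (u v : V) :
    lab r u v = - lab r v u := by
  classical
  unfold lab
  by_cases h1 : r u v
  · have h2 := hr u v h1
    simp [h1, h2]
  · by_cases h2 : r v u
    · simp [h1, h2]
    · simp only [h1, h2, if_false]
      by_cases h3 : Blocked r u v <;> by_cases h4 : Blocked r v u <;> simp [h3, h4]

lemma lab_le (r : V → V → Prop) (u v : V) : lab r u v ≤ 1 := by
  classical
  unfold lab
  split_ifs <;> simp

theorem defect_inequality [Nonempty V] (r : V → V → Prop) (hr : ∀ u v, r u v → ¬ r v u) :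
    ∃ f : V, (out r f).card ≤ (second r f).card + (excess r f).card := by
  classical
  obtain ⟨f, hf⟩ := exists_last_vertex (lab r) (lab_anti r hr) (lab_le r)
  refine ⟨f, ?_⟩
  set P := out r f with hPdef
  set X : Finset V := (univ.filter fun x => ¬ Near r f x) \ excess r f with hXdef
  have hirr : ∀ v, ¬ r v v := fun v h => hr v v h h
  have hmemP : ∀ u, u ∈ P ↔ r f u := by
    intro u
    simp [hPdef, out]
  have hfP : f ∉ P := by
    rw [hmemP]
    exact hirr f
  have hfX : f ∉ X := by
    simp [hXdef, Near]
  have hPX : ∀ v ∈ P, v ∉ X := by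
    intro v hv hvX
    have h1 : ¬ Near r f v := by
      simp only [hXdef, mem_sdiff, mem_filter, mem_univ, true_and] at hvX
      exact hvX.1
    exact h1 (Or.inr (Or.inl ((hmemP v).mp hv)))
  have hPf : ∀ u ∈ P, lab r u f = -1 := by
    intro u hu
    have h1 : r f u := (hmemP u).mp hu
    have h2 := hr f u h1
    simp [lab, h1, h2]
  have hcost : ∀ x ∈ X, ∑ u ∈ P, (1 + lab r u x) ≤ 1 := by
    intro x hx
    simp only [hXdef, mem_sdiff, mem_filter, mem_univ, true_and] at hx
    obtain ⟨hxN, hxE⟩ := hx
    have hcard : (P.filter fun u => DoubleBlocked r u x).card ≤ 1 := by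
      by_contra hcon
      apply hxE
      simp only [excess, mem_filter, mem_univ, true_and]
      refine ⟨hxN, ?_⟩
      rw [← hPdef]
      omega
    have hterm : ∀ u ∈ P, 1 + lab r u x = if DoubleBlocked r u x then 1 else 0 := by
      intro u hu
      have hfu : r f u := (hmemP u).mp hu
      have hux : ¬ r u x := fun h => hxN (Or.inr (Or.inr ⟨u, hfu, h⟩))
      have hne : u ≠ x := fun h => hxN (Or.inr (Or.inl (h ▸ hfu)))
      have hbl : Blocked r u x := ⟨f, hfu, hxN⟩
      by_cases hxu : r x u
      · have hnd : ¬ DoubleBlocked r u x := fun h => h.2.2.1 hxu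
        simp [lab, hux, hxu, hnd]
      · by_cases hb2 : Blocked r x u
        · have hd : DoubleBlocked r u x := ⟨hne, hux, hxu, hbl, hb2⟩
          simp [lab, hux, hxu, hbl, hb2, hd]
        · have hnd : ¬ DoubleBlocked r u x := fun h => hb2 h.2.2.2.2
          simp [lab, hux, hxu, hbl, hb2, hnd]
    rw [Finset.sum_congr rfl hterm, ← Finset.sum_filter]
    simpa using hcard
  have hmain := hf P X hfP hfX hPX hPf hcost
  have hsub : (univ : Finset V) \ (P ∪ X ∪ {f}) ⊆ second r f ∪ excess r f := by
    intro v hv
    simp only [mem_sdiff, mem_univ, true_and, mem_union, mem_singleton, not_or] at hv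
    obtain ⟨⟨hvP, hvX⟩, hvf⟩ := hv
    have hvr : ¬ r f v := fun h => hvP ((hmemP v).mpr h)
    by_cases hN : Near r f v
    · rcases hN with h | h | h
      · exact absurd h hvf
      · exact absurd h hvr
      · apply mem_union_left
        simp only [second, mem_filter, mem_univ, true_and]
        exact ⟨hvf, hvr, h⟩
    · apply mem_union_right
      by_contra hE
      apply hvX
      simp only [hXdef, mem_sdiff, mem_filter, mem_univ, true_and]
      exact ⟨hN, hE⟩
  calc P.card ≤ ((univ : Finset V) \ (P ∪ X ∪ {f})).card := hmain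
    _ ≤ (second r f ∪ excess r f).card := Finset.card_le_card hsub
    _ ≤ (second r f).card + (excess r f).card := Finset.card_union_le _ _

/-- Seymour vertices exist when, for all `f`, `x` with `x` not within distance two of `f`, at most
one out-neighbour of `f` forms a double-blocked missing edge with `x`. -/
theorem exists_seymour_of_no_excess [Nonempty V] (r : V → V → Prop)
    (hr : ∀ u v, r u v → ¬ r v u)
    (h : ∀ f x u₁ u₂, ¬ Near r f x → r f u₁ → r f u₂ → DoubleBlocked r u₁ x →
      DoubleBlocked r u₂ x → u₁ = u₂) :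
    ∃ f : V, (out r f).card ≤ (second r f).card := by
  classical
  obtain ⟨f, hf⟩ := defect_inequality r hr
  refine ⟨f, ?_⟩
  have hE : excess r f = ∅ := by
    apply Finset.eq_empty_of_forall_notMem
    intro x hx
    simp only [excess, mem_filter, mem_univ, true_and] at hx
    obtain ⟨hN, hc⟩ := hx
    have hc1 : 1 < ((out r f).filter fun u => DoubleBlocked r u x).card := by omega
    obtain ⟨u₁, hu₁, u₂, hu₂, hne⟩ := Finset.one_lt_card.mp hc1
    simp only [mem_filter] at hu₁ hu₂
    have h1 : r f u₁ := by simpa [out] using hu₁.1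
    have h2 : r f u₂ := by simpa [out] using hu₂.1
    exact hne (h f x u₁ u₂ hN h1 h2 hu₁.2 hu₂.2)
  rw [hE] at hf
  simpa using hf

end Vale.Agent.Lib.P038
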